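import Vale.Agent.P214.Defs

/-! P214 Split (owner helper61). Helper names end with `_Split`.
Splitting a measure without atoms. Induction on `n`; if `κ (Ioc s t) ≤ a` use `h`; otherwise `s ≤ t`, and
`u ↦ κ.real (Ioc s u) = ∫ _ in Ioc s u, 1 ∂κ` is continuous on `Icc s t` (`intervalIntegral.continuousOn_primitive`), the
intermediate value theorem gives `u` with value `a`; `Ioc_union_Ioc_eq_Ioc`, `measureReal_union`, `measureReal_union_le`.
-/

namespace Vale.Agent.P214

open MeasureTheory Set Filter Topology Metric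
open scoped ENNReal RealInnerProductSpace

variable {m N : ℕ} {μ : Measure (Sp N)} {P : Sp N → Sp N →L[ℝ] Sp N} {O : Set (Sp N)} {c : ℝ}

theorem split {κ ν : Measure ℝ} [IsFiniteMeasure κ] [IsFiniteMeasure ν] [NullSingletonClass κ] {a b : ℝ}
    (ha : 0 < a) (hb : 0 ≤ b) (h : ∀ s t, κ.real (Ioc s t) ≤ a → ν.real (Ioc s t) ≤ b) (n : ℕ) :
    ∀ s t, κ.real (Ioc s t) ≤ (n + 1) * a → ν.real (Ioc s t) ≤ (n + 1) * b := by
  induction n with
  | zero => intro s t hst; simpa using h s t (by simpa using hst)
  | succ n ih =>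
    intro s t hst
    have hn : (0 : ℝ) ≤ n := Nat.cast_nonneg n
    push_cast at hst ⊢
    by_cases h1 : κ.real (Ioc s t) ≤ a
    · have := h s t h1
      nlinarith [mul_nonneg hn hb]
    push Not at h1
    have hle : s ≤ t := by
      by_contra hc
      rw [Ioc_eq_empty (fun h' => hc h'.le)] at h1
      simp at h1
      linarith
    have hc : ContinuousOn (fun u => ∫ _ in Ioc s u, (1 : ℝ) ∂κ) (Icc s t) :=
      intervalIntegral.continuousOn_primitive (integrable_const _).integrableOn
    have hc' : ContinuousOn (fun u => κ.real (Ioc s u)) (Icc s t) := by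
      refine hc.congr fun u _ => ?_
      simp
    obtain ⟨u, hu, hu'⟩ := intermediate_value_Icc hle hc'
      (show a ∈ Icc (κ.real (Ioc s s)) (κ.real (Ioc s t)) from ⟨by simpa using ha.le, h1.le⟩)
    have hu' : κ.real (Ioc s u) = a := hu'
    have hU := Ioc_union_Ioc_eq_Ioc hu.1 hu.2
    have h2 : κ.real (Ioc s t) = κ.real (Ioc s u) + κ.real (Ioc u t) := by
      rw [← hU, measureReal_union (Ioc_disjoint_Ioc_of_le le_rfl) measurableSet_Ioc]
    have h3 := h s u hu'.le
    have h4 := ih u t (by linarith)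
    have h5 : ν.real (Ioc s t) ≤ ν.real (Ioc s u) + ν.real (Ioc u t) := by
      rw [← hU]; exact measureReal_union_le _ _
    linarith

end Vale.Agent.P214
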