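import Vale.Agent.P214.Iter
import Vale.Agent.P214.Split

/-! P214 Atom (owner helper61). Helper names end with `_Atom`.
Untilted points lie on charged levels. `A = {τ | 0 < μ {⟪ν, y⟫ = τ}}` is countable
(`Measure.countable_meas_level_set_pos`), `D = {P y ν = 0} ∩ {⟪ν, y⟫ ∉ A}` is null measurable; by `dens_pt` and
`Measure.support_mem_ae` it is enough to contradict `x ∈ D ∩ O ∩ support`. Take `R`, `Λ` (`Loc.upper`), `ε` (`Loc.dich`),
`n` with `Λ ≤ (n + 1) (ε / 2)`, `η` with `η Λ ≤ ε / 2` and `(n + 1) 2 η Λ < c / 4 ^ m`, a small `r ≤ R`.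
`split` for `κ = map ⟪ν, ·⟫ (μ.restrict (D ∩ ball x r))` (no atoms), `map ⟪ν, ·⟫ (μ.restrict (ball x (r / 2)))`,
`a = ε / 2 r ^ m`, `b = 2 η Λ r ^ m`: slab and `bad` parts outside `D`, and the level `⟪ν, y⟫ = t` meets `D` in a null set.
All of `ball x (r / 2)` has `⟪ν, y⟫ ∈ Ioc s t` for wide `s, t`; `Loc.lower` with `t = r / 4`.
-/

namespace Vale.Agent.P214

open MeasureTheory Set Filter Topology Metric
open scoped ENNReal RealInnerProductSpace

variable {m N : ℕ} {μ : Measure (Sp N)} {P : Sp N → Sp N →L[ℝ] Sp N} {O : Set (Sp N)} {c : ℝ}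

theorem Loc.piece_Atom (h : Loc m μ P O c) {ν x : Sp N} {D : Set (Sp N)} {r ε b s t : ℝ}
    (hr : 0 < r) (D1 : ∀ y ∈ D, P y ν = 0) (D2 : μ (D ∩ {y | ⟪ν, y⟫ = t}) = 0)
    (e1 : μ.real (closedBall x r \ D) ≤ b * r ^ m) (hb : b ≤ ε / 2)
    (hd : μ.real (slab ν s t ∩ ball x r) ≤ ε * r ^ m →
      μ.real (slab ν s t ∩ ball x (r / 2)) = 0 ∨ ∃ ρ ∈ Icc (r / 2) r,
        μ.real (slab ν s t ∩ ball x ρ) < μ.real (bad P ν s ∩ ball x ρ))
    (hk : μ.real ((fun y => ⟪ν, y⟫) ⁻¹' Ioc s t ∩ (D ∩ ball x r)) ≤ ε / 2 * r ^ m) :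
    μ.real ((fun y => ⟪ν, y⟫) ⁻¹' Ioc s t ∩ ball x (r / 2)) ≤ 2 * b * r ^ m := by
  have := h.fin
  have p0 : 0 < r ^ m := pow_pos hr m
  have b0 : 0 ≤ b * r ^ m := measureReal_nonneg.trans e1
  have a1 : μ.real (slab ν s t ∩ ball x r) ≤ ε * r ^ m := by
    have s1 : slab ν s t ∩ ball x r ⊆
        ((fun y => ⟪ν, y⟫) ⁻¹' Ioc s t ∩ (D ∩ ball x r)) ∪ (closedBall x r \ D) := by
      intro y hy
      by_cases k : y ∈ D
      · exact Or.inl ⟨⟨hy.1.1, hy.1.2.le⟩, k, hy.2⟩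
      · exact Or.inr ⟨ball_subset_closedBall hy.2, k⟩
    have s2 := (measureReal_mono (μ := μ) s1).trans (measureReal_union_le _ _)
    have s3 := mul_le_mul_of_nonneg_right hb p0.le
    linarith
  have a2 : μ.real (slab ν s t ∩ ball x (r / 2)) ≤ b * r ^ m := by
    rcases hd a1 with k | ⟨ρ, hρ, k⟩
    · rwa [k]
    · refine (measureReal_mono (inter_subset_inter_right _ (ball_subset_ball hρ.1))).trans
        (k.le.trans ((measureReal_mono fun y hy => ?_).trans e1))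
      exact ⟨ball_subset_closedBall (ball_subset_ball hρ.2 hy.2), fun k' => hy.1.1 (D1 y k')⟩
  have s1 : (fun y => ⟪ν, y⟫) ⁻¹' Ioc s t ∩ ball x (r / 2) ⊆ (slab ν s t ∩ ball x (r / 2)) ∪
      ((D ∩ {y | ⟪ν, y⟫ = t}) ∪ (closedBall x r \ D)) := by
    intro y hy
    rcases hy.1.2.lt_or_eq with k | k
    · exact Or.inl ⟨⟨hy.1.1, k⟩, hy.2⟩
    by_cases k' : y ∈ D
    · exact Or.inr (Or.inl ⟨k', k⟩)
    · exact Or.inr (Or.inr ⟨ball_subset_closedBall (ball_subset_ball (by linarith) hy.2), k'⟩)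
  have s2 := (measureReal_mono (μ := μ) s1).trans (measureReal_union_le _ _)
  have s3 := measureReal_union_le (μ := μ) (D ∩ {y | ⟪ν, y⟫ = t}) (closedBall x r \ D)
  have s4 : μ.real (D ∩ {y | ⟪ν, y⟫ = t}) = 0 := by simp [Measure.real, D2]
  linarith

theorem Loc.false_Atom (h : Loc m μ P O c) {ν : Sp N} {δ : ℝ} (hg : GapAt μ P ν δ) {x : Sp N}
    {D : Set (Sp N)} (D1 : ∀ y ∈ D, P y ν = 0) (D2 : ∀ t, μ (D ∩ {y | ⟪ν, y⟫ = t}) = 0)
    (hs : x ∈ μ.support) (hO : x ∈ O) (hx : ∀ η : ℝ, 0 < η → ∀ᶠ r in 𝓝[>] (0 : ℝ),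
      μ.real (closedBall x r \ D) ≤ η * μ.real (closedBall x r)) : False := by
  have := h.fin
  have c0 := h.cpos
  have ml : Measurable fun y : Sp N => ⟪ν, y⟫ := by fun_prop
  obtain ⟨R', hR', hB'⟩ := nhds_basis_closedBall.mem_iff.1 (h.op.mem_nhds hO)
  have hR : 0 < R' / 3 := by positivity
  obtain ⟨Λ, hΛ, hU⟩ := h.upper (x₀ := x) hR (by rwa [mul_div_cancel₀ _ (by norm_num)])
  obtain ⟨ε, hε, hd⟩ := h.dich hg hΛ
  obtain ⟨n, hn⟩ := exists_nat_ge (Λ / (ε / 2))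
  rw [div_le_iff₀ (by positivity)] at hn
  obtain ⟨b, b0, b1, b2⟩ : ∃ b : ℝ, 0 < b ∧ b ≤ ε / 2 ∧ b ≤ c / 4 ^ m / (4 * (n + 1)) :=
    ⟨min _ _, lt_min (by positivity) (by positivity), min_le_left _ _, min_le_right _ _⟩
  obtain ⟨r, ⟨r1, r2⟩, hr⟩ := (((hx (b / Λ) (by positivity)).and
    (nhdsWithin_le_nhds (Iic_mem_nhds hR))).and self_mem_nhdsWithin).exists
  replace hr : 0 < r := hr
  replace r2 : r ≤ R' / 3 := r2
  have p0 : 0 < r ^ m := pow_pos hr m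
  have u1 := hU x (mem_ball_self hR) r hr r2
  have e1 : μ.real (closedBall x r \ D) ≤ b * r ^ m := by
    refine r1.trans ((mul_le_mul_of_nonneg_left u1 (by positivity)).trans (le_of_eq ?_))
    field_simp
  have k1 : ∀ (S : Set (Sp N)) (s t : ℝ),
      (Measure.map (fun y => ⟪ν, y⟫) (μ.restrict S)).real (Ioc s t) =
        μ.real ((fun y => ⟪ν, y⟫) ⁻¹' Ioc s t ∩ S) := fun S s t => by
    rw [map_measureReal_apply ml measurableSet_Ioc,
      measureReal_restrict_apply (ml measurableSet_Ioc)]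
  have : NullSingletonClass (Measure.map (fun y => ⟪ν, y⟫) (μ.restrict (D ∩ ball x r))) :=
    ⟨fun t => by
      rw [Measure.map_apply ml (measurableSet_singleton t),
        Measure.restrict_apply (ml (measurableSet_singleton t))]
      refine measure_mono_null (fun y hy => ?_) (D2 t)
      exact ⟨hy.2.1, hy.1⟩⟩
  have sp := split (κ := Measure.map (fun y => ⟪ν, y⟫) (μ.restrict (D ∩ ball x r)))
    (ν := Measure.map (fun y => ⟪ν, y⟫) (μ.restrict (ball x (r / 2)))) (a := ε / 2 * r ^ m)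
    (b := 2 * b * r ^ m) (by positivity) (by positivity) (fun s t hk => by
      rw [k1] at hk ⊢
      exact h.piece_Atom hr D1 (D2 t) e1 b1 (hd x r s t hr
        ((closedBall_subset_closedBall (by linarith)).trans hB')
        fun z hz t' t0 t1 => hU z (ball_subset_ball r2 hz) t' t0 (t1.trans r2)) hk) n
    (⟪ν, x⟫ - ‖ν‖ * r - 1) (⟪ν, x⟫ + ‖ν‖ * r) (by
      rw [k1]
      refine (measureReal_mono fun y hy => ball_subset_closedBall hy.2.2).trans (u1.trans ?_)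
      have := mul_le_mul_of_nonneg_right hn p0.le
      have : 0 < ε / 2 * r ^ m := by positivity
      linarith)
  rw [k1] at sp
  have lo := h.lower hs (t := r / 4) (by positivity)
    ((closedBall_subset_closedBall (by linarith)).trans hB')
  have s1 : ball x (2 * (r / 4)) ⊆
      (fun y => ⟪ν, y⟫) ⁻¹' Ioc (⟪ν, x⟫ - ‖ν‖ * r - 1) (⟪ν, x⟫ + ‖ν‖ * r) ∩ ball x (r / 2) := by
    intro y hy
    have q1 : ‖y - x‖ ≤ r := by
      rw [← dist_eq_norm]
      linarith [mem_ball.1 hy]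
    have q2 := abs_le.1 ((abs_real_inner_le_norm ν (y - x)).trans
      (mul_le_mul_of_nonneg_left q1 (norm_nonneg ν)))
    rw [inner_sub_right] at q2
    exact ⟨⟨by linarith [q2.1], by linarith [q2.2]⟩, ball_subset_ball (by linarith) hy⟩
  have s2 := lo.trans ((measureReal_mono s1).trans sp)
  rw [le_div_iff₀ (by positivity)] at b2
  have s3 := mul_le_mul_of_nonneg_right b2 p0.le
  have s4 : c * (r / 4) ^ m = c / 4 ^ m * r ^ m := by
    rw [div_pow]
    ring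
  have s5 : 0 < c / 4 ^ m * r ^ m := by positivity
  linarith

theorem Loc.atom (h : Loc m μ P O c) {ν : Sp N} {δ : ℝ} (hg : GapAt μ P ν δ) :
    ∀ᵐ x ∂μ, x ∈ O → P x ν = 0 → 0 < μ {y | ⟪ν, y⟫ = ⟪ν, x⟫} := by
  have := h.fin
  have ml : Measurable fun y : Sp N => ⟪ν, y⟫ := by fun_prop
  have cA : {τ : ℝ | 0 < μ {y | ⟪ν, y⟫ = τ}}.Countable := Measure.countable_meas_level_set_pos ml
  have nD : NullMeasurableSet
      ({y | P y ν = 0} ∩ (fun y => ⟪ν, y⟫) ⁻¹' {τ : ℝ | 0 < μ {y | ⟪ν, y⟫ = τ}}ᶜ) μ :=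
    (h.null_bad ν).inter (ml cA.measurableSet.compl).nullMeasurableSet
  filter_upwards [dens_pt nD, Measure.support_mem_ae] with x hx hs hO hP
  by_contra hA
  refine h.false_Atom hg (fun y hy => hy.1) (fun t => ?_) hs hO (hx ⟨hP, hA⟩)
  by_cases k : 0 < μ {y | ⟪ν, y⟫ = t}
  · refine measure_mono_null (fun y hy => hy.1.2 ?_) measure_empty
    have e : ⟪ν, y⟫ = t := hy.2
    change 0 < μ {z | ⟪ν, z⟫ = ⟪ν, y⟫}
    rwa [e]
  · exact measure_mono_null inter_subset_right (by simpa using k)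

end Vale.Agent.P214
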