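import Vale.Agent.P214.Defs

/-! P214 Cov (owner helper61). Helper names end with `_Cov`.
Coverings. `cov`: `Vitali.exists_disjoint_subfamily_covering_enlargement_closedBall` with `τ = 4`,
`Set.PairwiseDisjoint.countable_of_nonempty_interior`, `measure_biUnion` or `tsum_measure_le_measure_univ`.
`null_of_lower`: enough `μH[m] S = 0` (`Measure.euclideanHausdorffMeasure_def`). For each `n` take an open `Q ⊇ S`
with `ν Q < 1 / (n + 1)` (`Set.exists_isOpen_lt_of_lt`), radii `r x ≤ 1 / (n + 1)` with `closedBall x (r x) ⊆ Q`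
and the lower bound; `cov` with `g x = ofReal (a * r x ^ m)`; `ediam (closedBall x (4 r)) ≤ ofReal (8 r)`;
`Measure.hausdorffMeasure_le_liminf_tsum` along `atTop`, the sums are at most `ofReal (8 ^ m / a) / (n + 1)`.
-/

namespace Vale.Agent.P214

open MeasureTheory Set Filter Topology Metric
open scoped ENNReal RealInnerProductSpace

variable {m N : ℕ} {μ : Measure (Sp N)} {P : Sp N → Sp N →L[ℝ] Sp N} {O : Set (Sp N)} {c : ℝ}

theorem cov (ν : Measure (Sp N)) {S Q : Set (Sp N)} {r : Sp N → ℝ} {R : ℝ} {g : Sp N → ℝ≥0∞}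
    (hr : ∀ x ∈ S, 0 < r x ∧ r x ≤ R) (hQ : ∀ x ∈ S, closedBall x (r x) ⊆ Q)
    (hg : ∀ x ∈ S, g x ≤ ν (closedBall x (r x))) :
    ∃ u ⊆ S, u.Countable ∧ (S ⊆ ⋃ x ∈ u, closedBall x (4 * r x)) ∧ ∑' x : u, g x ≤ ν Q := by
  obtain ⟨u, hu, hd, hc⟩ := Vitali.exists_disjoint_subfamily_covering_enlargement_closedBall S
    (fun x => x) r R (fun x hx => (hr x hx).2) 4 (by norm_num)
  have hcnt : u.Countable := hd.countable_of_nonempty_interior fun x hx =>
    ⟨x, ball_subset_interior_closedBall (mem_ball_self (hr x (hu hx)).1)⟩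
  refine ⟨u, hu, hcnt, fun x hx => ?_, ?_⟩
  · obtain ⟨b, hb, h⟩ := hc x hx
    exact mem_biUnion hb (h (mem_closedBall_self (hr x hx).1.le))
  · refine (ENNReal.tsum_le_tsum fun x : u => hg x (hu x.2)).trans ?_
    rw [← measure_biUnion hcnt hd fun _ _ => measurableSet_closedBall]
    exact measure_mono (iUnion₂_subset fun x hx => hQ x (hu hx))

theorem ediam_Cov (x : Sp N) (t : ℝ) : ediam (closedBall x (4 * t)) ≤ ENNReal.ofReal (8 * t) := by
  refine ediam_le_of_forall_dist_le fun y hy z hz => ?_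
  have := dist_triangle_right y z x
  rw [mem_closedBall] at hy hz
  linarith

theorem step_Cov {ν : Measure (Sp N)} [IsFiniteMeasure ν] {S : Set (Sp N)} {a : ℝ}
    (ha : 0 < a) (h : ∀ x ∈ S, ∀ᶠ t in 𝓝[>] (0 : ℝ), a * t ^ m ≤ ν.real (closedBall x t))
    (h0 : ν S = 0) {ε : ℝ} (hε : 0 < ε) : ∃ (u : Set (Sp N)) (T : u → Set (Sp N)), u.Countable ∧
      (∀ x, ediam (T x) ≤ ENNReal.ofReal (8 * ε)) ∧ (S ⊆ ⋃ x, T x) ∧
      ∑' x, ediam (T x) ^ (m : ℝ) ≤ ENNReal.ofReal (8 ^ m / a * ε) := by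
  obtain ⟨Q, hSQ, hQ, hν⟩ := S.exists_isOpen_lt_of_lt (μ := ν) (ENNReal.ofReal ε)
    (by rw [h0]; exact ENNReal.ofReal_pos.2 hε)
  have h1 : ∀ x, ∃ t : ℝ, x ∈ S → (0 < t ∧ t ≤ ε) ∧ closedBall x t ⊆ Q ∧
      a * t ^ m ≤ ν.real (closedBall x t) := by
    intro x
    by_cases hx : x ∈ S
    · have e1 := eventually_closedBall_subset (hQ.mem_nhds (hSQ hx))
      have e2 : ∀ᶠ t in 𝓝[>] (0 : ℝ), t ∈ Ioc 0 ε := Ioc_mem_nhdsGT hε
      obtain ⟨t, ht⟩ := (e2.and ((e1.filter_mono nhdsWithin_le_nhds).and (h x hx))).exists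
      exact ⟨t, fun _ => ht⟩
    · exact ⟨0, fun h => absurd h hx⟩
  choose r hr using h1
  obtain ⟨u, hu, hc, hcov, hs⟩ := cov ν (g := fun x => ENNReal.ofReal (a * r x ^ m))
    (fun x hx => (hr x hx).1) (fun x hx => (hr x hx).2.1) fun x hx =>
      ENNReal.ofReal_le_of_le_toReal (hr x hx).2.2
  refine ⟨u, fun x => closedBall x (4 * r x), hc, fun x => (ediam_Cov _ _).trans
    (ENNReal.ofReal_le_ofReal (by linarith [(hr x (hu x.2)).1.2])), ?_, ?_⟩
  · rwa [biUnion_eq_iUnion] at hcov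
  · have hp : (0 : ℝ) ≤ 8 ^ m / a := by positivity
    rw [ENNReal.ofReal_mul hp]
    refine le_trans ?_ (mul_le_mul_right (hs.trans hν.le) _)
    rw [← ENNReal.tsum_mul_left]
    refine ENNReal.tsum_le_tsum fun x => ?_
    have h2 := (hr x (hu x.2)).1.1
    rw [ENNReal.rpow_natCast, ← ENNReal.ofReal_mul hp]
    refine (pow_le_pow_left' (ediam_Cov _ _) m).trans (le_of_eq ?_)
    rw [← ENNReal.ofReal_pow (by positivity)]
    congr 1
    field_simp
    ring

theorem null_of_lower {ν : Measure (Sp N)} [IsFiniteMeasure ν] {S : Set (Sp N)} {a : ℝ}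
    (ha : 0 < a) (h : ∀ x ∈ S, ∀ᶠ t in 𝓝[>] (0 : ℝ), a * t ^ m ≤ ν.real (closedBall x t))
    (h0 : ν S = 0) : μHE[m] S = 0 := by
  have h1 := fun n : ℕ => step_Cov ha h h0 (Nat.one_div_pos_of_nat (n := n))
  choose u T hc hd hcov hs using h1
  have h2 : ∀ b : ℝ, Tendsto (fun n : ℕ => ENNReal.ofReal (b * (1 / ((n : ℝ) + 1)))) atTop (𝓝 0) := by
    intro b
    have := ENNReal.tendsto_ofReal (tendsto_one_div_add_atTop_nhds_zero_nat.const_mul b)
    rwa [mul_zero, ENNReal.ofReal_zero] at this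
  have := fun n => (hc n).to_subtype
  have h3 := Measure.hausdorffMeasure_le_liminf_tsum (m : ℝ) S _ (h2 8) T (.of_forall hd)
    (.of_forall hcov)
  have h4 : μH[m] S = 0 := by
    refine nonpos_iff_eq_zero.1 (h3.trans ?_)
    rw [← (h2 (8 ^ m / a)).liminf_eq]
    exact liminf_le_liminf (.of_forall hs)
  rw [Measure.euclideanHausdorffMeasure_def, Measure.smul_apply, h4, smul_zero]

end Vale.Agent.P214
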