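import Vale.Agent.P214.Mono

/-! P214 Dens (owner helper61). Helper names end with `_Dens`.
Density bounds. `mono1`: `Loc.mono` with `f = 1`, `lam = 0` (`tg P 1 = 0`).
`sand`: `indicator (closedBall x (t / 2)) 1 ≤ bump x t ≤ indicator (closedBall x t) 1`.
`upper`: `Λ = (2 ^ m / (2 R) ^ m) * μ.real univ + 1`: for `x ∈ ball x₀ R`, `t ≤ R` compare the scales `2 t ≤ 2 R`.
`lower`: `μ (ball x t) > 0` (`Measure.mem_support_iff_forall`), so there is `z ∈ ball x t` where `dens` holds
(`Measure.exists_mem_of_measure_ne_zero_of_ae`); `mono1` at `z` from a small scale to `t`.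
`dens_pt`: `Besicovitch.ae_tendsto_measure_inter_div`, `ae_restrict_iff'₀`, `measure_inter_add_diff₀`.
-/

namespace Vale.Agent.P214

open MeasureTheory Set Filter Topology Metric
open scoped ENNReal RealInnerProductSpace

variable {m N : ℕ} {μ : Measure (Sp N)} {P : Sp N → Sp N →L[ℝ] Sp N} {O : Set (Sp N)} {c : ℝ}

theorem Loc.mono1 (h : Loc m μ P O c) {x : Sp N} {σ ρ : ℝ} (hσ : 0 < σ) (hσρ : σ ≤ ρ)
    (hB : closedBall x ρ ⊆ O) :
    (σ ^ m)⁻¹ * ∫ y, bump x σ y ∂μ ≤ (ρ ^ m)⁻¹ * ∫ y, bump x ρ y ∂μ := by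
  simpa using h.mono (f := fun _ => 1) contDiff_const (fun _ => zero_le_one) hσ hσρ hB (lam := 0)
    fun t _ => by simp [tg]

theorem sand [IsFiniteMeasure μ] (x : Sp N) {t : ℝ} (ht : 0 < t) :
    μ.real (closedBall x (t / 2)) ≤ ∫ y, bump x t y ∂μ ∧
      ∫ y, bump x t y ∂μ ≤ μ.real (ball x t) := by
  constructor
  · rw [← integral_indicator_one measurableSet_closedBall]
    refine integral_mono ((integrable_const 1).indicator measurableSet_closedBall)
      ((bump_contDiff x t).continuous.integrable_of_hasCompactSupport (bump_supp x ht).1)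
      fun y => ?_
    by_cases hy : y ∈ closedBall x (t / 2)
    · rw [indicator_of_mem hy, bump_one ht hy]; rfl
    · rw [indicator_of_notMem hy]; exact (bump_mem x t y).1
  · exact (le_abs_self _).trans ((int_le (L := 1) (fun y hy => bump_zero ht hy) fun y => by
      rw [abs_of_nonneg (bump_mem x t y).1]; exact (bump_mem x t y).2).trans_eq (one_mul _))

theorem Loc.upper (h : Loc m μ P O c) {x₀ : Sp N} {R : ℝ} (hR : 0 < R)
    (hB : closedBall x₀ (3 * R) ⊆ O) : ∃ Λ : ℝ, 0 < Λ ∧ Up m μ (ball x₀ R) R Λ := by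
  have := h.fin
  refine ⟨2 ^ m * ((2 * R) ^ m)⁻¹ * μ.real univ + 1, by positivity, fun x hx t ht htR => ?_⟩
  have a := h.mono1 (x := x) (σ := 2 * t) (ρ := 2 * R) (by positivity) (by linarith)
    ((closedBall_subset_closedBall' (by linarith [mem_ball.1 hx])).trans hB)
  have b := (sand (μ := μ) x (t := 2 * t) (by positivity)).1
  have d := (sand (μ := μ) x (t := 2 * R) (by positivity)).2.trans
    (measureReal_mono (subset_univ _))
  rw [mul_div_cancel_left₀ _ two_ne_zero] at b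
  rw [inv_mul_le_iff₀ (by positivity)] at a
  calc _ ≤ (2 * t) ^ m * (((2 * R) ^ m)⁻¹ * μ.real univ) := b.trans (a.trans (by gcongr))
    _ = (2 ^ m * ((2 * R) ^ m)⁻¹ * μ.real univ) * t ^ m := by rw [mul_pow 2 t]; ring
    _ ≤ _ := by gcongr; linarith

theorem Loc.lower (h : Loc m μ P O c) {x : Sp N} (hx : x ∈ μ.support) {t : ℝ} (ht : 0 < t)
    (hB : closedBall x (2 * t) ⊆ O) : c * t ^ m ≤ μ.real (ball x (2 * t)) := by
  have := h.fin
  obtain ⟨z, hz, e⟩ := Measure.exists_mem_of_measure_ne_zero_of_ae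
    ((Measure.mem_support_iff_forall x).1 hx _ (ball_mem_nhds x ht)).ne' (ae_restrict_of_ae h.dens)
  obtain ⟨s, h1, h2⟩ := (e.and (Ioc_mem_nhdsGT ht)).exists
  have hz' := mem_ball.1 hz
  have a := h.mono1 (x := z) h2.1 h2.2
    ((closedBall_subset_closedBall' (by linarith)).trans hB)
  have b := (sand (μ := μ) z ht).2.trans
    (measureReal_mono (ball_subset_ball' (y := x) (ε₂ := 2 * t) (by linarith)))
  have s0 := pow_pos h2.1 m
  rw [mul_comm, ← le_inv_mul_iff₀ s0] at h1
  have d := h1.trans a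
  rw [le_inv_mul_iff₀ (pow_pos ht m), mul_comm] at d
  exact d.trans b

theorem dens_pt [IsFiniteMeasure μ] {D : Set (Sp N)} (hD : NullMeasurableSet D μ) :
    ∀ᵐ x ∂μ, x ∈ D → ∀ η : ℝ, 0 < η → ∀ᶠ r in 𝓝[>] (0 : ℝ),
      μ.real (closedBall x r \ D) ≤ η * μ.real (closedBall x r) := by
  filter_upwards [(ae_restrict_iff'₀ hD).1 (Besicovitch.ae_tendsto_measure_inter_div μ D)]
    with x hx hxD η hη
  have t := (ENNReal.tendsto_toReal ENNReal.one_ne_top).comp (hx hxD)
  filter_upwards [t.eventually (lt_mem_nhds (show 1 - η < (1 : ℝ≥0∞).toReal by simpa))] with r hr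
  have e := measureReal_inter_add_sdiff₀ (μ := μ) (s := closedBall x r) hD
  rw [Function.comp, ENNReal.toReal_div, inter_comm, ← measureReal_def, ← measureReal_def] at hr
  rcases (measureReal_nonneg (μ := μ) (s := closedBall x r)).eq_or_lt with h0 | h0
  · rw [← h0] at e ⊢
    linarith [measureReal_nonneg (μ := μ) (s := closedBall x r ∩ D)]
  · rw [lt_div_iff₀ h0] at hr
    linarith

end Vale.Agent.P214
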