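import Vale.Agent.P214.Kit

/-! P214 Loc (owner helper61). Helper names end with `_Loc`.
From the varifold to the local setting. `c0_pos`: `Continuous.integral_pos_of_hasCompactSupport_nonneg_nonzero`.
`c0_eq`: an isometry `Sp m → Sp N` with range `T` (`(stdOrthonormalBasis ℝ T).reindex`, `.repr.symm`, `T.subtypeₗᵢ`),
`Isometry.map_euclideanHausdorffMeasure`, `EuclideanSpace.euclideanHausdorffMeasure_eq_volume`, `integral_map`.
`lim`: `tangent` with `φ = fun y => gam (‖y‖ ^ 2) = bump 0 1`, `φ (t⁻¹ • (y - x)) = bump x t y`; for small `t` the ball is in `W`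
(`setIntegral_eq_integral_of_forall_compl_eq_zero`); `ae_restrict_of_ae`, `ae_restrict_mem`.
`loc`: `X y = g y • v`, `X y = g y • (y - x)`; `fderiv_smul`, `LinearMap.trace_smulRight`, `LinearMap.IsProj.trace`;
the integrands vanish off `tsupport g ⊆ W`. `1 ≤ θ` a.e. since `μ Eᶜ = 0` (`withDensity_absolutelyContinuous`, `ae_restrict_mem₀`).
-/

namespace Vale.Agent.P214

open MeasureTheory Set Filter Topology Metric
open scoped ENNReal RealInnerProductSpace

variable {m N : ℕ} {μ : Measure (Sp N)} {P : Sp N → Sp N →L[ℝ] Sp N} {O : Set (Sp N)} {c : ℝ}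

variable {U : Set (Sp N)}

theorem bump_unit_Loc : bump (0 : Sp N) 1 = fun y => gam (‖y‖ ^ 2) := by
  funext y
  simp [bump]

theorem gam_zero_Loc : gam 0 = 1 := by
  unfold gam
  exact Real.smoothTransition.one_of_one_le (by norm_num)

theorem cont_Loc : Continuous fun y : Sp N => gam (‖y‖ ^ 2) := by
  rw [← bump_unit_Loc]
  exact (bump_contDiff 0 1).continuous

theorem supp_Loc : HasCompactSupport fun y : Sp N => gam (‖y‖ ^ 2) := by
  rw [← bump_unit_Loc]
  exact (bump_supp 0 one_pos).1

theorem c0_pos (m : ℕ) : 0 < c0 m := by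
  unfold c0
  refine cont_Loc.integral_pos_of_hasCompactSupport_nonneg_nonzero (x := 0) supp_Loc
    (fun y => (gam_mem _).1) ?_
  simp [gam_zero_Loc]

theorem c0_eq {T : Submodule ℝ (Sp N)} (hT : Module.finrank ℝ T = m) :
    ∫ y in (T : Set (Sp N)), gam (‖y‖ ^ 2) ∂μHE[m] = c0 m := by
  let b : OrthonormalBasis (Fin m) ℝ T := (stdOrthonormalBasis ℝ T).reindex (finCongr hT)
  let f : Sp m →ₗᵢ[ℝ] Sp N := T.subtypeₗᵢ.comp b.repr.symm.toLinearIsometry
  have hr : range f = (T : Set (Sp N)) := by
    ext y
    constructor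
    · rintro ⟨z, rfl⟩
      exact (b.repr.symm z).2
    · intro hy
      exact ⟨b.repr ⟨y, hy⟩, by simp [f]⟩
  have hm := f.isometry.map_euclideanHausdorffMeasure (d := m)
  rw [← hr, ← hm, integral_map f.continuous.measurable.aemeasurable
    cont_Loc.aestronglyMeasurable, EuclideanSpace.euclideanHausdorffMeasure_eq_volume]
  unfold c0
  simp only [f.norm_map]

theorem IntVarifold.ae_mem (V : IntVarifold m N U) : ∀ᵐ x ∂V.μ, x ∈ V.E :=
  (withDensity_absolutelyContinuous _ _).ae_le (ae_restrict_mem₀ V.rect.1)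

theorem IntVarifold.lim (V : IntVarifold m N U) {W : Set (Sp N)} (hW : IsOpen W) :
    ∀ᵐ x ∂V.μ.restrict W, Tendsto (fun t : ℝ => (t ^ m)⁻¹ * ∫ y, bump x t y ∂V.μ.restrict W)
      (𝓝[>] 0) (𝓝 (V.θ x * c0 m)) := by
  filter_upwards [ae_restrict_of_ae (s := W) V.tangent, ae_restrict_mem hW.measurableSet]
    with x hx hxW
  have h1 := hx _ cont_Loc supp_Loc
  rw [c0_eq (V.dim x)] at h1
  refine h1.congr' ?_
  obtain ⟨ε, hε, hball⟩ := Metric.isOpen_iff.1 hW x hxW
  filter_upwards [Ioo_mem_nhdsGT hε] with t ht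
  have e1 : ∀ y, gam (‖t⁻¹ • (y - x)‖ ^ 2) = bump x t y := by
    intro y
    unfold bump
    rw [norm_smul, mul_pow, Real.norm_eq_abs, sq_abs, inv_pow, mul_comm, div_eq_mul_inv]
  simp only [e1]
  rw [setIntegral_eq_integral_of_forall_compl_eq_zero fun y hy =>
    bump_zero ht.1 fun h => hy (hball (ball_subset_ball ht.2.le h))]
  rfl

theorem tr_one (T : Submodule ℝ (Sp N)) (D : Sp N →L[ℝ] ℝ) (v : Sp N) :
    LinearMap.trace ℝ (Sp N) (T.starProjection.comp (D.smulRight v)).toLinearMap =
      D (T.starProjection v) := by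
  have e : (T.starProjection.comp (D.smulRight v)).toLinearMap =
      (D.toLinearMap).smulRight (T.starProjection v) := by
    ext y : 1
    simp
  rw [e, LinearMap.trace_smulRight]
  rfl

theorem tr_id (T : Submodule ℝ (Sp N)) :
    LinearMap.trace ℝ (Sp N) T.starProjection.toLinearMap = Module.finrank ℝ T := by
  refine LinearMap.IsProj.trace ⟨fun x => T.starProjection_apply_mem x, fun x hx => ?_⟩
  exact Submodule.starProjection_eq_self_iff.2 hx

theorem fderiv_zero_Loc {g : Sp N → ℝ} {y : Sp N} (hy : y ∉ tsupport g) : fderiv ℝ g y = 0 := by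
  by_contra h
  exact hy (support_fderiv_subset ℝ (f := g) h)

theorem IntVarifold.loc (V : IntVarifold m N U) (hm : 1 ≤ m) (hV : V.Stationary) {x₀ : Sp N}
    {R : ℝ} (hB : closedBall x₀ R ⊆ U) :
    Loc m (V.μ.restrict (ball x₀ R)) (fun y => (V.T y).starProjection) (ball x₀ R) (c0 m / 2) := by
  have hU : ball x₀ R ⊆ U := ball_subset_closedBall.trans hB
  refine ⟨hm, ⟨?_⟩, isOpen_ball, V.measT.restrict, fun y v w => ?_, fun y v => ?_,
    fun g hg cs hs v => ?_, fun g hg cs hs x => ?_, half_pos (c0_pos m), ?_⟩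
  · rw [Measure.restrict_apply_univ]
    exact (measure_mono ball_subset_closedBall).trans_lt
      (V.locFin _ hB (isCompact_closedBall x₀ R))
  · exact (V.T y).inner_starProjection_left_eq_right v w
  · exact Submodule.starProjection_eq_self_iff.2 ((V.T y).starProjection_apply_mem v)
  · have h := hV (fun y => g y • v) (hg.smul contDiff_const) (cs.smul_right)
      (((tsupport_smul_subset_left g fun _ => v).trans hs).trans hU)
    have e : ∀ y, fderiv ℝ (fun y => g y • v) y = (fderiv ℝ g y).smulRight v := fun y =>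
      ((hg.differentiable one_ne_zero y).hasFDerivAt.smul_const v).fderiv
    simp only [e, tr_one] at h
    rw [setIntegral_eq_integral_of_forall_compl_eq_zero fun y hy => by
      rw [fderiv_zero_Loc fun h' => hy (hs h')]; rfl]
    exact h
  · have h := hV (fun y => g y • (y - x)) (hg.smul (contDiff_id.sub contDiff_const))
      (cs.smul_right) (((tsupport_smul_subset_left g fun y => y - x).trans hs).trans hU)
    have e : ∀ y, fderiv ℝ (fun y => g y • (y - x)) y =
        g y • ContinuousLinearMap.id ℝ (Sp N) + (fderiv ℝ g y).smulRight (y - x) := fun y =>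
      ((hg.differentiable one_ne_zero y).hasFDerivAt.smul
        ((hasFDerivAt_id y).sub_const x)).fderiv
    have e2 : ∀ y, LinearMap.trace ℝ (Sp N) ((V.T y).starProjection.comp
        (fderiv ℝ (fun y => g y • (y - x)) y)).toLinearMap =
        m * g y + fderiv ℝ g y ((V.T y).starProjection (y - x)) := by
      intro y
      have e3 : ((V.T y).starProjection.comp
          (fderiv ℝ (fun y => g y • (y - x)) y)).toLinearMap =
          g y • (V.T y).starProjection.toLinearMap +
            ((V.T y).starProjection.comp ((fderiv ℝ g y).smulRight (y - x))).toLinearMap := by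
        rw [e]
        ext z : 1
        simp
      rw [e3, map_add, map_smul, tr_one, tr_id, V.dim, smul_eq_mul, mul_comm]
    simp only [e2] at h
    rw [setIntegral_eq_integral_of_forall_compl_eq_zero fun y hy => by
      rw [fderiv_zero_Loc fun h' => hy (hs h'),
        image_eq_zero_of_notMem_tsupport fun h' => hy (hs h')]
      simp]
    exact h
  · filter_upwards [V.lim (W := ball x₀ R) isOpen_ball, ae_restrict_of_ae V.ae_mem] with x hx hE
    have h1 : (1 : ℝ) ≤ V.θ x := by exact_mod_cast V.pos x hE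
    have h0 := c0_pos m
    have h2 : c0 m / 2 < V.θ x * c0 m := by nlinarith
    filter_upwards [hx.eventually (lt_mem_nhds h2), self_mem_nhdsWithin] with t ht ht0
    have hp : 0 < t ^ m := pow_pos ht0 m
    rw [inv_mul_eq_div, lt_div_iff₀ hp] at ht
    exact ht.le

end Vale.Agent.P214
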