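import Vale.Agent.P214.Trans
import Vale.Agent.P214.Dens
import Vale.Agent.P214.Cov
import Vale.Agent.P214.Loc

/-! P214 Const (owner helper61). Helper names end with `_Const`.
Constancy. Write `μ' = V.μ.restrict O`, `O = ball x₀ R`, `W = ball x (r / 2)`, `A = AffineSubspace.mk' x S`,
`I z t = ∫ bump z t ∂μ'`. `Loc.trans` gives `I z t = I x t` for `z ∈ A ∩ W`, `t < r / 2`. `μ' W > 0`, so some `z₀ ∈ A ∩ W ∩ E`
has the limit of `IntVarifold.lim`; `q = θ z₀`; then `(t ^ m)⁻¹ I z t → q c0` for all `z ∈ A ∩ W` and `θ = q` a.e. on `W`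
(`tendsto_nhds_unique`, `c0_pos`). `sand` gives `A ∩ W ⊆ support` and the lower bound for `null_of_lower` with `S = A ∩ W \ E`;
`μ (W \ A) = 0` with `W \ A` open gives the other inclusion. `μHE.restrict E ≪ μ` (`withDensity_absolutelyContinuous'`), so
`E ∩ W =ᵐ[μHE] A ∩ W` and `θ = q` a.e.; `restrict_withDensity`, `withDensity_congr_ae`, `withDensity_const`,
`Measure.restrict_restrict`, `Measure.restrict_congr_set`.
-/

namespace Vale.Agent.P214

open MeasureTheory Set Filter Topology Metric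
open scoped ENNReal RealInnerProductSpace

variable {m N : ℕ} {μ : Measure (Sp N)} {P : Sp N → Sp N →L[ℝ] Sp N} {O : Set (Sp N)} {c : ℝ}

variable {U : Set (Sp N)}

theorem IntVarifold.flat (V : IntVarifold m N U) (hm : 1 ≤ m) (hV : V.Stationary) {x₀ : Sp N}
    {R : ℝ} (hB : closedBall x₀ R ⊆ U) {S : Submodule ℝ (Sp N)} (hS : Module.finrank ℝ S = m)
    {x : Sp N} (hx : x ∈ V.μ.support) {r : ℝ} (hr : 0 < r) (hO : ball x r ⊆ ball x₀ R)
    (h1 : ∀ᵐ y ∂V.μ.restrict (ball x₀ R), y ∈ ball x r → y - x ∈ S ∧ V.T y = S) :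
    V.FlatRegular x := by
  have h := V.loc hm hV hB
  have := h.fin
  have c0p := c0_pos m
  have hW : ball x (r / 2) ⊆ ball x r := ball_subset_ball (by linarith)
  have hWO : ball x (r / 2) ⊆ ball x₀ R := hW.trans hO
  have tr : ∀ z ∈ ball x (r / 2), z - x ∈ S → ∀ᶠ t in 𝓝[>] (0 : ℝ),
      ∫ y, bump z t y ∂V.μ.restrict (ball x₀ R) = ∫ y, bump x t y ∂V.μ.restrict (ball x₀ R) := by
    intro z hz hS'
    filter_upwards [Ioo_mem_nhdsGT (half_pos hr)] with t ht
    have a1 := h.trans (x := x) (v := z - x) hO ht.1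
      (by linarith [ht.2, mem_ball_iff_norm.1 hz]) (h1.mono fun y hy hy' => by
        simp only [(hy hy').2]
        exact Submodule.starProjection_eq_self_iff.2 hS')
    rwa [add_sub_cancel] at a1
  have pW : V.μ.restrict (ball x₀ R) (ball x (r / 2)) ≠ 0 := by
    rw [Measure.restrict_apply measurableSet_ball, inter_eq_left.2 hWO]
    exact ((Measure.mem_support_iff_forall x).1 hx _ (ball_mem_nhds x (half_pos hr))).ne'
  have good : ∀ᵐ y ∂V.μ.restrict (ball x₀ R), y ∈ ball x (r / 2) → y ∈ V.E ∧ y - x ∈ S ∧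
      Tendsto (fun t : ℝ => (t ^ m)⁻¹ * ∫ y, bump x t y ∂V.μ.restrict (ball x₀ R)) (𝓝[>] 0)
        (𝓝 (V.θ y * c0 m)) := by
    filter_upwards [h1, V.lim isOpen_ball, ae_restrict_of_ae V.ae_mem] with y a1 a2 a3 hy
    exact ⟨a3, (a1 (hW hy)).1, a2.congr' ((tr y hy (a1 (hW hy)).1).mono fun t ht => by
      simp only [ht])⟩
  obtain ⟨z₀, hz₀, b⟩ := Measure.exists_mem_of_measure_ne_zero_of_ae pW (ae_restrict_of_ae good)
  obtain ⟨b1, -, b3⟩ := b hz₀
  have q1 : 1 ≤ V.θ z₀ := V.pos z₀ b1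
  have low : ∀ z ∈ ball x (r / 2), z - x ∈ S → ∀ᶠ t in 𝓝[>] (0 : ℝ),
      c0 m / 2 * t ^ m ≤ (V.μ.restrict (ball x₀ R)).real (ball z t) := by
    intro z hz hS'
    have a0 : c0 m / 2 < V.θ z₀ * c0 m := by
      have : (1 : ℝ) ≤ V.θ z₀ := by exact_mod_cast q1
      nlinarith
    filter_upwards [tr z hz hS', b3.eventually (lt_mem_nhds a0), self_mem_nhdsWithin]
      with t a1 a2 a3
    have a4 := (sand (μ := V.μ.restrict (ball x₀ R)) z a3).2
    rw [a1] at a4
    rw [lt_inv_mul_iff₀ (pow_pos a3 m)] at a2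
    linarith
  have g2 : ∀ᵐ y ∂V.μ, y ∈ ball x (r / 2) → y - x ∈ S ∧ V.θ y = V.θ z₀ := by
    filter_upwards [(ae_restrict_iff' measurableSet_ball).1 good] with y hy hyW
    obtain ⟨-, a2, a3⟩ := hy (hWO hyW) hyW
    exact ⟨a2, by exact_mod_cast mul_right_cancel₀ c0p.ne' (tendsto_nhds_unique a3 b3)⟩
  have ac : μHE[m].restrict V.E ≪ V.μ := withDensity_absolutelyContinuous'
    (measurable_from_top.comp_aemeasurable V.meas)
    ((ae_restrict_mem₀ V.rect.1).mono fun y hy => by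
      have a1 := V.pos y hy
      exact Nat.cast_ne_zero.2 (by omega))
  have g3 : ∀ᵐ y ∂μHE[m].restrict V.E, y ∈ ball x (r / 2) → y - x ∈ S ∧ V.θ y = V.θ z₀ :=
    ac.ae_le g2
  have g4 : μHE[m] (((AffineSubspace.mk' x S : Set (Sp N)) ∩ ball x (r / 2)) \ V.E) = 0 :=
    null_of_lower (ν := V.μ.restrict (ball x₀ R)) (a := c0 m / 2) (by positivity)
      (fun z hz => (low z hz.1.2 hz.1.1).mono fun t ht =>
        ht.trans (measureReal_mono ball_subset_closedBall))
      (measure_eq_zero_iff_ae_notMem.2 ((ae_restrict_of_ae V.ae_mem).mono fun y hy hy' => hy'.2 hy))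
  refine ⟨ball x (r / 2), isOpen_ball, mem_ball_self (half_pos hr),
    hWO.trans (ball_subset_closedBall.trans hB), AffineSubspace.mk' x S,
    AffineSubspace.self_mem_mk' x S, by rw [AffineSubspace.direction_mk', hS], ?_,
    V.θ z₀, q1, ?_⟩
  · refine Subset.antisymm (fun z hz => ⟨?_, hz.2⟩) fun z hz => ⟨?_, hz.2⟩
    · by_contra k
      have op : IsOpen (ball x (r / 2) \ (AffineSubspace.mk' x S : Set (Sp N))) :=
        isOpen_ball.sdiff (AffineSubspace.closed_of_finiteDimensional _)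
      have a1 := (Measure.mem_support_iff_forall z).1 hz.1 _ (op.mem_nhds ⟨hz.2, k⟩)
      refine a1.ne' (measure_eq_zero_iff_ae_notMem.2 (g2.mono fun y hy hy' => ?_))
      exact hy'.2 (hy hy'.1).1
    · refine (Measure.mem_support_iff_forall z).2 fun Q hQ => ?_
      obtain ⟨ε, hε, hQ'⟩ := Metric.mem_nhds_iff.1 hQ
      obtain ⟨t, k1, k2⟩ := ((low z hz.2 hz.1).and (Ioo_mem_nhdsGT hε)).exists
      have t0 := k2.1
      have a1 := (ENNReal.toReal_pos_iff.1 (lt_of_lt_of_le (by positivity) k1)).1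
      exact a1.trans_le ((Measure.restrict_le_self _).trans
        (measure_mono ((ball_subset_ball k2.2.le).trans hQ')))
  · have e1 : V.μ.restrict (ball x (r / 2)) =
        ((μHE[m].restrict V.E).restrict (ball x (r / 2))).withDensity
          fun y => (V.θ y : ℝ≥0∞) := restrict_withDensity measurableSet_ball _
    have e2 : (fun y => (V.θ y : ℝ≥0∞)) =ᵐ[(μHE[m].restrict V.E).restrict (ball x (r / 2))]
        fun _ => (V.θ z₀ : ℝ≥0∞) := (ae_restrict_iff' measurableSet_ball).2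
      (g3.mono fun y hy hyW => by simp only [(hy hyW).2])
    have e3 : (ball x (r / 2) ∩ V.E : Set (Sp N)) =ᵐ[μHE[m]]
        ((AffineSubspace.mk' x S : Set (Sp N)) ∩ ball x (r / 2) : Set (Sp N)) := by
      refine ae_eq_set.2 ⟨?_, ?_⟩
      · refine measure_eq_zero_iff_ae_notMem.2
          (((ae_restrict_iff'₀ V.rect.1).1 g3).mono fun y hy hy' => ?_)
        exact hy'.2 ⟨(hy hy'.1.2 hy'.1.1).1, hy'.1.1⟩
      · refine measure_mono_null (fun y hy => ?_) g4
        exact ⟨hy.1, fun k => hy.2 ⟨hy.1.2, k⟩⟩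
    rw [e1, withDensity_congr_ae e2, withDensity_const,
      Measure.restrict_restrict measurableSet_ball, Measure.restrict_congr_set e3]

end Vale.Agent.P214
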