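import Vale.Agent.P214.Stmt

/-! P214 Defs (owner helper61, frozen): the local setting. -/

namespace Vale.Agent.P214

open MeasureTheory Set Filter Topology Metric
open scoped ENNReal RealInnerProductSpace

noncomputable section

variable {N : ℕ}

/-- Cutoff: `1` for `s ≤ 1/2`, `0` for `s ≥ 1`, decreasing. -/
def gam (s : ℝ) : ℝ := Real.smoothTransition (2 - 2 * s)

/-- Radial cutoff at scale `t`. -/
def bump (x : Sp N) (t : ℝ) (y : Sp N) : ℝ := gam (‖y - x‖ ^ 2 / t ^ 2)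

/-- Norm of the tangential gradient. -/
def tg (P : Sp N → Sp N →L[ℝ] Sp N) (f : Sp N → ℝ) (y : Sp N) : ℝ :=
  ‖(fderiv ℝ f y).comp (P y)‖

/-- A finite stationary piece in the open set `O`. -/
structure Loc (m : ℕ) (μ : Measure (Sp N)) (P : Sp N → Sp N →L[ℝ] Sp N) (O : Set (Sp N))
    (c : ℝ) : Prop where
  mpos : 1 ≤ m
  fin : IsFiniteMeasure μ
  op : IsOpen O
  meas : AEStronglyMeasurable P μ
  sym : ∀ y v w, ⟪P y v, w⟫ = ⟪v, P y w⟫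
  idem : ∀ y v, P y (P y v) = P y v
  s1 : ∀ g : Sp N → ℝ, ContDiff ℝ 1 g → HasCompactSupport g → tsupport g ⊆ O →
    ∀ v, ∫ y, fderiv ℝ g y (P y v) ∂μ = 0
  s2 : ∀ g : Sp N → ℝ, ContDiff ℝ 1 g → HasCompactSupport g → tsupport g ⊆ O →
    ∀ x, ∫ y, (m * g y + fderiv ℝ g y (P y (y - x))) ∂μ = 0
  cpos : 0 < c
  dens : ∀ᵐ x ∂μ, ∀ᶠ t in 𝓝[>] (0 : ℝ), c * t ^ m ≤ ∫ y, bump x t y ∂μ

/-- Upper density bound at the points of `S` up to radius `R`. -/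
def Up (m : ℕ) (μ : Measure (Sp N)) (S : Set (Sp N)) (R Λ : ℝ) : Prop :=
  ∀ x ∈ S, ∀ t, 0 < t → t ≤ R → μ.real (closedBall x t) ≤ Λ * t ^ m

/-- Open slab. -/
def slab (ν : Sp N) (a b : ℝ) : Set (Sp N) := {y | a < ⟪ν, y⟫ ∧ ⟪ν, y⟫ < b}

/-- Tilted points above the level `a`. -/
def bad (P : Sp N → Sp N →L[ℝ] Sp N) (ν : Sp N) (a : ℝ) : Set (Sp N) :=
  {y | P y ν ≠ 0 ∧ a < ⟪ν, y⟫}

/-- The gap condition for `ν`. -/
def GapAt (μ : Measure (Sp N)) (P : Sp N → Sp N →L[ℝ] Sp N) (ν : Sp N) (δ : ℝ) : Prop :=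
  0 < δ ∧ ∀ᵐ y ∂μ, P y ν = 0 ∨ δ ≤ ‖P y ν‖

/-- The integral of the unit cutoff over an `m`-plane. -/
def c0 (m : ℕ) : ℝ := ∫ y : Sp m, gam (‖y‖ ^ 2)

end

end Vale.Agent.P214
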