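import Vale.Agent.P214.Prj

/-! P214 Flux (owner helper61). Helper names end with `_Flux`.
Flux through a level. `flux`: `h.s1` for `g y = a ⟪ν, y⟫ * φ y`, `v = ν`:
`dg (P ν) = a' ‖P ν‖ ^ 2 φ + a dφ (P ν)` (`Loc.inner_P`; `innerSL ℝ ν` for the derivative of `⟪ν, ·⟫`), the gap gives
`δ ‖P ν‖ ≤ ‖P ν‖ ^ 2` a.e.; `int_le` for `a dφ (P ν)`, which vanishes off `bad P ν τ ∩ B`
(`fderiv` vanishes off `tsupport`: `support_fderiv_subset`). Integrability: `Loc.int_nP`, `Loc.int_ap`.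
`tilt_zero`: `h.s1` for `g y = (⟪ν, y⟫ - ⟪ν, x⟫) * bump x (r / 2) y`... the second term vanishes a.e., so
`∫ bump * ‖P ν‖ ^ 2 = 0`, `integral_eq_zero_iff_of_nonneg`, `bump_one`.
-/

namespace Vale.Agent.P214

open MeasureTheory Set Filter Topology Metric
open scoped ENNReal RealInnerProductSpace

variable {m N : ℕ} {μ : Measure (Sp N)} {P : Sp N → Sp N →L[ℝ] Sp N} {O : Set (Sp N)} {c : ℝ}

theorem cont_Flux {a : ℝ → ℝ} (ha : ContDiff ℝ 1 a) (ν : Sp N) :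
    Continuous fun y : Sp N => deriv a ⟪ν, y⟫ :=
  (ha.continuous_deriv le_rfl).comp (innerSL ℝ ν).continuous

theorem zero_Flux {φ : Sp N → ℝ} {y : Sp N} (h : y ∉ tsupport φ) : fderiv ℝ φ y = 0 := by
  by_contra h0
  exact h (support_fderiv_subset ℝ h0)

theorem cd_Flux {a : ℝ → ℝ} (ha : ContDiff ℝ 1 a) (ν : Sp N) :
    ContDiff ℝ 1 fun y : Sp N => a ⟪ν, y⟫ :=
  ContDiff.comp (g := a) (f := fun y : Sp N => ⟪ν, y⟫) ha (innerSL ℝ ν).contDiff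

theorem fd_Flux {a : ℝ → ℝ} (ha : ContDiff ℝ 1 a) (ν : Sp N) {φ : Sp N → ℝ}
    (hφ : ContDiff ℝ 1 φ) (y w : Sp N) : fderiv ℝ (fun y => a ⟪ν, y⟫ * φ y) y w =
      φ y * deriv a ⟪ν, y⟫ * ⟪ν, w⟫ + a ⟪ν, y⟫ * fderiv ℝ φ y w := by
  have d0 : HasFDerivAt (fun y : Sp N => ⟪ν, y⟫) (innerSL ℝ ν) y := (innerSL ℝ ν).hasFDerivAt
  have d1 : HasFDerivAt (fun y : Sp N => a ⟪ν, y⟫) (deriv a ⟪ν, y⟫ • innerSL ℝ ν) y :=
    HasDerivAt.comp_hasFDerivAt (h₂ := a) (f := fun y : Sp N => ⟪ν, y⟫) y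
      (ha.differentiable one_ne_zero _).hasDerivAt d0
  have d2 := d1.fun_mul (hφ.differentiable one_ne_zero y).hasFDerivAt
  rw [d2.fderiv]
  simp only [add_apply, smul_apply, innerSL_apply_apply,
    smul_eq_mul]
  ring

theorem Loc.i2_Flux (h : Loc m μ P O c) (ν : Sp N) {a : ℝ → ℝ} (ha : ContDiff ℝ 1 a)
    {φ : Sp N → ℝ} (hφ : ContDiff ℝ 1 φ) (cs : HasCompactSupport φ) :
    Integrable (fun y => a ⟪ν, y⟫ * fderiv ℝ φ y (P y ν)) μ := by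
  have c1 : Continuous fun y => a ⟪ν, y⟫ • fderiv ℝ φ y :=
    (cd_Flux ha ν).continuous.smul (hφ.continuous_fderiv one_ne_zero)
  have c2 : HasCompactSupport fun y => a ⟪ν, y⟫ • fderiv ℝ φ y :=
    HasCompactSupport.intro cs fun y hy => by rw [zero_Flux hy, smul_zero]
  have := h.int_ap (w := fun _ => ν) c1 c2 continuous_const
  simpa only [smul_apply, smul_eq_mul] using this

theorem Loc.key_Flux (h : Loc m μ P O c) (ν : Sp N) {a : ℝ → ℝ} (ha : ContDiff ℝ 1 a)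
    {φ : Sp N → ℝ} (hφ : ContDiff ℝ 1 φ) (cs : HasCompactSupport φ) (hO : tsupport φ ⊆ O) :
    ∫ y, φ y * deriv a ⟪ν, y⟫ * ‖P y ν‖ ^ 2 ∂μ =
      -∫ y, a ⟪ν, y⟫ * fderiv ℝ φ y (P y ν) ∂μ := by
  have c0 : HasCompactSupport fun y => a ⟪ν, y⟫ * φ y :=
    HasCompactSupport.intro cs fun y hy => by rw [image_eq_zero_of_notMem_tsupport hy, mul_zero]
  have c1 : tsupport (fun y => a ⟪ν, y⟫ * φ y) ⊆ O :=
    (tsupport_mul_subset_right (f := fun y => a ⟪ν, y⟫) (g := φ)).trans hO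
  have h0 := h.s1 (fun y => a ⟪ν, y⟫ * φ y) ((cd_Flux ha ν).mul hφ) c0 c1 ν
  have c2 : HasCompactSupport fun y => φ y * deriv a ⟪ν, y⟫ :=
    HasCompactSupport.intro cs fun y hy => by rw [image_eq_zero_of_notMem_tsupport hy, zero_mul]
  have i1 := h.int_nP (a := fun y => φ y * deriv a ⟪ν, y⟫) (hφ.continuous.mul (cont_Flux ha ν))
    c2 ν 2
  simp only [fd_Flux ha ν hφ, h.inner_P] at h0
  rw [integral_add i1 (h.i2_Flux ν ha hφ cs)] at h0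
  linarith

theorem Loc.flux (h : Loc m μ P O c) {ν : Sp N} {δ : ℝ} (hg : GapAt μ P ν δ) {a : ℝ → ℝ} {τ : ℝ}
    (ha : ContDiff ℝ 1 a) (a0 : ∀ t, 0 ≤ a t ∧ a t ≤ 1 ∧ 0 ≤ deriv a t) (a1 : ∀ t ≤ τ, a t = 0)
    {φ : Sp N → ℝ} {B : Set (Sp N)} {L : ℝ} (hφ : ContDiff ℝ 1 φ) (cs : HasCompactSupport φ)
    (hB : tsupport φ ⊆ B) (hO : B ⊆ O) (φ0 : ∀ y, 0 ≤ φ y) (hL : ∀ y, ‖fderiv ℝ φ y‖ ≤ L) :
    ∫ y, φ y * deriv a ⟪ν, y⟫ * ‖P y ν‖ ^ 1 ∂μ ≤ L * ‖ν‖ / δ * μ.real (bad P ν τ ∩ B) := by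
  have hδ := hg.1
  have k := h.key_Flux ν ha hφ cs (hB.trans hO)
  have := h.fin
  have hc := hφ.continuous.mul (cont_Flux ha ν)
  have i1 := h.int_nP (a := fun y => φ y * deriv a ⟪ν, y⟫) hc cs.mul_right ν 1
  have i2 := h.int_nP (a := fun y => φ y * deriv a ⟪ν, y⟫) hc cs.mul_right ν 2
  have h1 : δ * ∫ y, φ y * deriv a ⟪ν, y⟫ * ‖P y ν‖ ^ 1 ∂μ ≤
      ∫ y, φ y * deriv a ⟪ν, y⟫ * ‖P y ν‖ ^ 2 ∂μ := by
    rw [← integral_const_mul]
    refine integral_mono_ae (i1.const_mul δ) i2 ?_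
    filter_upwards [hg.2] with y hy
    have h2 : 0 ≤ φ y * deriv a ⟪ν, y⟫ := mul_nonneg (φ0 y) (a0 _).2.2
    have h3 : δ * ‖P y ν‖ ≤ ‖P y ν‖ ^ 2 := by
      rcases hy with hy | hy
      · simp [hy]
      · rw [sq]
        exact mul_le_mul_of_nonneg_right hy (norm_nonneg _)
    have h4 := mul_le_mul_of_nonneg_left h3 h2
    simp only [pow_one]
    linarith
  have h5 := int_le (μ := μ) (f := fun y => a ⟪ν, y⟫ * fderiv ℝ φ y (P y ν))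
    (S := bad P ν τ ∩ B) (L := L * ‖ν‖) (fun y hy => by
      by_cases h6 : y ∈ B
      · by_cases h7 : P y ν = 0
        · simp [h7]
        · have h8 : ⟪ν, y⟫ ≤ τ := not_lt.1 fun h9 => hy ⟨⟨h7, h9⟩, h6⟩
          simp [a1 _ h8]
      · simp [zero_Flux fun h' => h6 (hB h')]) fun y => by
      rw [abs_mul, abs_of_nonneg (a0 _).1]
      refine (mul_le_of_le_one_left (abs_nonneg _) (a0 _).2.1).trans ?_
      exact ((fderiv ℝ φ y).le_opNorm _).trans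
        (mul_le_mul (hL y) (h.norm_P y ν) (norm_nonneg _) ((norm_nonneg _).trans (hL y)))
  rw [div_mul_eq_mul_div, le_div_iff₀ hδ]
  linarith [neg_abs_le (∫ y, a ⟪ν, y⟫ * fderiv ℝ φ y (P y ν) ∂μ)]

theorem Loc.tilt_zero (h : Loc m μ P O c) {ν x : Sp N} {r : ℝ} (hr : 0 < r) (hO : ball x r ⊆ O)
    (hl : ∀ᵐ y ∂μ, y ∈ ball x r → ⟪ν, y⟫ = ⟪ν, x⟫) :
    ∀ᵐ y ∂μ, y ∈ ball x (r / 4) → P y ν = 0 := by
  have hr2 : 0 < r / 2 := by linarith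
  obtain ⟨cs, hs⟩ := bump_supp x hr2
  have hs' : tsupport (bump x (r / 2)) ⊆ ball x r := hs.trans (closedBall_subset_ball (by linarith))
  have ha : ContDiff ℝ 1 fun t : ℝ => t - ⟪ν, x⟫ := contDiff_id.sub contDiff_const
  have k := h.key_Flux ν ha (bump_contDiff x (r / 2)) cs (hs'.trans hO)
  have h1 : ∫ y, (⟪ν, y⟫ - ⟪ν, x⟫) * fderiv ℝ (bump x (r / 2)) y (P y ν) ∂μ = 0 := by
    refine integral_eq_zero_of_ae ?_
    filter_upwards [hl] with y hy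
    by_cases h2 : y ∈ ball x r
    · simp [hy h2]
    · simp [zero_Flux fun h' => h2 (hs' h')]
  have hd : ∀ t : ℝ, deriv (fun t : ℝ => t - ⟪ν, x⟫) t = 1 := fun t =>
    ((hasDerivAt_id t).sub_const _).deriv
  simp only [hd, mul_one] at k
  rw [h1, neg_zero, integral_eq_zero_iff_of_nonneg
    (fun y => mul_nonneg (bump_mem x _ y).1 (sq_nonneg _))
    (h.int_nP (bump_contDiff x (r / 2)).continuous cs ν 2)] at k
  filter_upwards [k] with y hy hy'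
  have h3 : y ∈ closedBall x (r / 2 / 2) :=
    ball_subset_closedBall (ball_subset_ball (by linarith) hy')
  rw [bump_one hr2 h3, one_mul] at hy
  exact norm_eq_zero.1 (pow_eq_zero_iff two_ne_zero |>.1 hy)

end Vale.Agent.P214
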