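import Vale.Agent.P214.Key

/-! P214 Iter (owner helper61). Helper names end with `_Iter`.
De Giorgi iteration. `iter_real`: `κ = min (1 / 4) (1 / (8 C 2 ^ m))`, `ε = k κ ^ m`, `ρ j = r / 2 + r / 2 ^ (j + 1)`,
`s j = κ r / 2 ^ j`; if `Z ≤ Y` on `[r / 2, r]`, by induction `Y (ρ j) ≤ k (s j) ^ m` (`ρ j - ρ (j + 1) = r / 2 ^ (j + 2)`,
the factor is `C s j / (ρ j - ρ (j + 1)) * 2 = 8 C κ ≤ 1 / 2 ^ m`); `Y (r / 2) ≤ Y (ρ j) → 0` since `1 ≤ m`.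
`dich`: `iter_real` with `Loc.key`, `k = c / 2`.
-/

namespace Vale.Agent.P214

open MeasureTheory Set Filter Topology Metric
open scoped ENNReal RealInnerProductSpace

variable {m N : ℕ} {μ : Measure (Sp N)} {P : Sp N → Sp N →L[ℝ] Sp N} {O : Set (Sp N)} {c : ℝ}

theorem iter_real (hm : 1 ≤ m) {k C : ℝ} (hk : 0 < k) (hC : 0 < C) : ∃ ε : ℝ, 0 < ε ∧
    ∀ (Y Z : ℝ → ℝ) (r : ℝ), 0 < r → Monotone Y → (∀ t, 0 ≤ Y t) →
      (∀ ρ' ρ s, r / 2 ≤ ρ' → ρ' < ρ → ρ ≤ r → 0 < s → s ≤ r / 4 → Y ρ ≤ k * s ^ m →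
        Y ρ' ≤ C * s / (ρ - ρ') * (Y ρ + Z ρ)) →
      Y r ≤ ε * r ^ m → Y (r / 2) = 0 ∨ ∃ ρ ∈ Icc (r / 2) r, Y ρ < Z ρ := by
  obtain ⟨κ, hκ0, hκ1, hκ2⟩ : ∃ κ : ℝ, 0 < κ ∧ κ ≤ 1 / 4 ∧ 8 * C * κ * 2 ^ m ≤ 1 := by
    refine ⟨min (1 / 4) (1 / (8 * C * 2 ^ m)), by positivity, min_le_left _ _, ?_⟩
    have h1 : min (1 / 4) (1 / (8 * C * 2 ^ m)) ≤ 1 / (8 * C * 2 ^ m) := min_le_right _ _
    rw [le_div_iff₀ (by positivity)] at h1
    linarith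
  refine ⟨k * κ ^ m, by positivity, fun Y Z r hr hY hY0 hkey hε => ?_⟩
  by_contra hcon
  rw [not_or] at hcon
  obtain ⟨hne, hZ⟩ := hcon
  have hZ' : ∀ ρ ∈ Icc (r / 2) r, Z ρ ≤ Y ρ := fun ρ hρ => not_lt.mp fun h => hZ ⟨ρ, hρ, h⟩
  have step : ∀ w : ℝ, 0 < w → w ≤ r → Y (r / 2 + w / 2) ≤ k * (κ * w) ^ m →
      Y (r / 2 + w / 2 / 2) ≤ k * (κ * (w / 2)) ^ m := by
    intro w hw hwr h
    have h1 := hkey (r / 2 + w / 2 / 2) (r / 2 + w / 2) (κ * w) (by linarith) (by linarith)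
      (by linarith) (by positivity) (by nlinarith) h
    have h2 : C * (κ * w) / (r / 2 + w / 2 - (r / 2 + w / 2 / 2)) = 4 * C * κ := by
      have : r / 2 + w / 2 - (r / 2 + w / 2 / 2) = w / 4 := by ring
      rw [this]
      field_simp
    rw [h2] at h1
    have h3 := hZ' (r / 2 + w / 2) ⟨by linarith, by linarith⟩
    have h4 : (κ * w) ^ m = (κ * (w / 2)) ^ m * 2 ^ m := by
      rw [← mul_pow]
      congr 1
      ring
    have h5 : 0 ≤ k * (κ * (w / 2)) ^ m := by positivity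
    have h6 : 0 ≤ 4 * C * κ := by positivity
    calc Y (r / 2 + w / 2 / 2) ≤ 4 * C * κ * (2 * (k * (κ * w) ^ m)) :=
          h1.trans (mul_le_mul_of_nonneg_left (by linarith) h6)
      _ = 8 * C * κ * 2 ^ m * (k * (κ * (w / 2)) ^ m) := by
          rw [h4]
          ring
      _ ≤ 1 * (k * (κ * (w / 2)) ^ m) := mul_le_mul_of_nonneg_right hκ2 h5
      _ = _ := one_mul _
  have hw : ∀ j : ℕ, 0 < r * (1 / 2 : ℝ) ^ j ∧ r * (1 / 2 : ℝ) ^ j ≤ r := fun j =>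
    ⟨by positivity, mul_le_of_le_one_right hr.le (pow_le_one₀ (by norm_num) (by norm_num))⟩
  have ind : ∀ j : ℕ, Y (r / 2 + r * (1 / 2 : ℝ) ^ j / 2) ≤ k * (κ * (r * (1 / 2 : ℝ) ^ j)) ^ m := by
    intro j
    induction j with
    | zero =>
      have e1 : r / 2 + r * (1 / 2 : ℝ) ^ 0 / 2 = r := by ring
      have e2 : k * (κ * (r * (1 / 2 : ℝ) ^ 0)) ^ m = k * κ ^ m * r ^ m := by
        rw [pow_zero, mul_one, mul_pow, mul_assoc]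
      rw [e1, e2]
      exact hε
    | succ j ih =>
      have e1 : r * (1 / 2 : ℝ) ^ (j + 1) = r * (1 / 2 : ℝ) ^ j / 2 := by ring
      rw [e1]
      exact step _ (hw j).1 (hw j).2 ih
  have hlim : Tendsto (fun j : ℕ => k * (κ * (r * (1 / 2 : ℝ) ^ j)) ^ m) atTop
      (𝓝 (k * (κ * (r * 0)) ^ m)) :=
    (((((tendsto_pow_atTop_nhds_zero_of_lt_one (by norm_num) (by norm_num)).const_mul r).const_mul
      κ).pow m).const_mul k)
  have h0 : k * (κ * (r * 0)) ^ m = 0 := by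
    rw [mul_zero, mul_zero, zero_pow (by omega), mul_zero]
  rw [h0] at hlim
  refine hne (le_antisymm (ge_of_tendsto' hlim fun j => ?_) (hY0 _))
  exact (hY (by linarith [(hw j).1])).trans (ind j)

theorem Loc.dich (h : Loc m μ P O c) {ν : Sp N} {δ Λ : ℝ} (hg : GapAt μ P ν δ) (hΛ : 0 < Λ) :
    ∃ ε : ℝ, 0 < ε ∧ ∀ (x : Sp N) (r τ₁ τ₂ : ℝ), 0 < r → closedBall x (2 * r) ⊆ O →
      Up m μ (ball x r) r Λ → μ.real (slab ν τ₁ τ₂ ∩ ball x r) ≤ ε * r ^ m →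
      μ.real (slab ν τ₁ τ₂ ∩ ball x (r / 2)) = 0 ∨ ∃ ρ ∈ Icc (r / 2) r,
        μ.real (slab ν τ₁ τ₂ ∩ ball x ρ) < μ.real (bad P ν τ₁ ∩ ball x ρ) := by
  obtain ⟨C, hC, hkey⟩ := h.key hg hΛ
  obtain ⟨ε, hε, hit⟩ := iter_real (k := c / 2) h.mpos (half_pos h.cpos) hC
  have := h.fin
  refine ⟨ε, hε, fun x r τ₁ τ₂ hr hO hU hs => ?_⟩
  refine hit (fun t => μ.real (slab ν τ₁ τ₂ ∩ ball x t)) (fun t => μ.real (bad P ν τ₁ ∩ ball x t))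
    r hr (fun a b hab => measureReal_mono (inter_subset_inter_right _ (ball_subset_ball hab)))
    (fun _ => measureReal_nonneg) (fun ρ' ρ s h1 h2 h3 h4 h5 h6 => ?_) hs
  refine hkey x ρ' ρ s τ₁ τ₂ (by linarith) h2 h4
    ((closedBall_subset_closedBall (by linarith)).trans hO) (fun y hy t ht htR => ?_) h6
  exact hU y (ball_subset_ball (by linarith) hy) t ht (by linarith)

end Vale.Agent.P214
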