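import Vale.Agent.P214.MS
import Vale.Agent.P214.Flux

/-! P214 Key (owner helper61). Helper names end with `_Key`.
The key inequality. `L` from `exists_cut`, `C = 4 ^ (m + 1) Λ / c * L * (1 + 2 ‖ν‖ / δ)`.
`key0`: `a t = smoothTransition ((t - τ₁) / e)`, `b t = smoothTransition ((t - (τ₂ - e)) / e)`, `b ≤ a` (monotone, `τ₁ ≤ τ₂ - e`),
`f y = (a ⟪ν, y⟫ - b ⟪ν, y⟫) * φ y` vanishes off `slab ν τ₁ τ₂ ∩ ball x ρ` and is `1` on `G = slab ν (τ₁ + e) (τ₂ - e) ∩ ball x ρ'`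
(if `τ₂ - e ≤ τ₁ + e` then `G` is empty); `tg P f ≤ φ a' ‖P ν‖ + φ b' ‖P ν‖ + (a - b) ‖dφ‖`
(`ContinuousLinearMap.opNorm_le_bound`, `h.sym`), `Loc.flux` twice (both with `τ = τ₁`), `int_le`, `Loc.ms`.
`key`: the slab is the increasing union over `e = 1 / (n + 1)` (`tendsto_measure_iUnion_atTop`, `le_of_tendsto'`).
-/

namespace Vale.Agent.P214

open MeasureTheory Set Filter Topology Metric
open scoped ENNReal RealInnerProductSpace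

variable {m N : ℕ} {μ : Measure (Sp N)} {P : Sp N → Sp N →L[ℝ] Sp N} {O : Set (Sp N)} {c : ℝ}

theorem stp_Key (τ : ℝ) {e : ℝ} (he : 0 < e) :
    ContDiff ℝ 1 (fun t : ℝ => Real.smoothTransition ((t - τ) / e)) ∧
    (∀ t, 0 ≤ Real.smoothTransition ((t - τ) / e) ∧ Real.smoothTransition ((t - τ) / e) ≤ 1 ∧
      0 ≤ deriv (fun t : ℝ => Real.smoothTransition ((t - τ) / e)) t) ∧
    (∀ t ≤ τ, Real.smoothTransition ((t - τ) / e) = 0) ∧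
    (∀ t, τ + e ≤ t → Real.smoothTransition ((t - τ) / e) = 1) := by
  refine ⟨Real.smoothTransition.contDiff.comp ((contDiff_id.sub contDiff_const).div_const e),
    fun t => ⟨Real.smoothTransition.nonneg _, Real.smoothTransition.le_one _, ?_⟩, ?_, ?_⟩
  · refine Monotone.deriv_nonneg fun u v huv => Real.smoothTransition.monotone ?_
    exact div_le_div_of_nonneg_right (by linarith) he.le
  · intro t ht
    exact Real.smoothTransition.zero_of_nonpos (div_nonpos_of_nonpos_of_nonneg (by linarith) he.le)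
  · intro t ht
    exact Real.smoothTransition.one_of_one_le ((one_le_div he).2 (by linarith))

theorem tg_Key (h : Loc m μ P O c) (ν : Sp N) {a b : ℝ → ℝ} {φ : Sp N → ℝ} (ha : ContDiff ℝ 1 a)
    (hb : ContDiff ℝ 1 b) (hφ : ContDiff ℝ 1 φ) (a0 : ∀ t, 0 ≤ deriv a t) (b0 : ∀ t, 0 ≤ deriv b t)
    (hab : ∀ t, b t ≤ a t) (φ0 : ∀ y, 0 ≤ φ y) (y : Sp N) :
    tg P (fun y => (a ⟪ν, y⟫ - b ⟪ν, y⟫) * φ y) y ≤
      φ y * deriv a ⟪ν, y⟫ * ‖P y ν‖ ^ 1 + φ y * deriv b ⟪ν, y⟫ * ‖P y ν‖ ^ 1 +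
        (a ⟪ν, y⟫ - b ⟪ν, y⟫) * ‖fderiv ℝ φ y‖ := by
  have hi : HasFDerivAt (fun y : Sp N => ⟪ν, y⟫) (innerSL ℝ ν) y := (innerSL ℝ ν).hasFDerivAt
  have h1 := ((ha.differentiable one_ne_zero) ⟪ν, y⟫).hasDerivAt.comp_hasFDerivAt y hi
  have h2 := ((hb.differentiable one_ne_zero) ⟪ν, y⟫).hasDerivAt.comp_hasFDerivAt y hi
  have h3 := ((hφ.differentiable one_ne_zero) y).hasFDerivAt
  have h4 : HasFDerivAt (fun y => (a ⟪ν, y⟫ - b ⟪ν, y⟫) * φ y) _ y := (h1.sub h2).mul h3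
  have p1 := a0 ⟪ν, y⟫
  have p2 := b0 ⟪ν, y⟫
  have p3 := φ0 y
  have p4 : 0 ≤ a ⟪ν, y⟫ - b ⟪ν, y⟫ := sub_nonneg.2 (hab _)
  unfold tg
  rw [h4.fderiv]
  refine ContinuousLinearMap.opNorm_le_bound _ (by positivity) fun v => ?_
  have e1 : |⟪ν, P y v⟫| ≤ ‖P y ν‖ * ‖v‖ := by
    rw [← h.sym]
    exact abs_real_inner_le_norm _ _
  have e2 : |fderiv ℝ φ y (P y v)| ≤ ‖fderiv ℝ φ y‖ * ‖v‖ :=
    ((fderiv ℝ φ y).le_opNorm _).trans
      (mul_le_mul_of_nonneg_left (h.norm_P y v) (norm_nonneg _))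
  simp only [ContinuousLinearMap.comp_apply, add_apply,
    smul_apply, sub_apply, innerSL_apply_apply,
    smul_eq_mul, Real.norm_eq_abs, Pi.sub_apply, Function.comp_apply, pow_one]
  have q1 := mul_le_mul_of_nonneg_left e1 (mul_nonneg p3 p1)
  have q2 := mul_le_mul_of_nonneg_left e1 (mul_nonneg p3 p2)
  have q3 := mul_le_mul_of_nonneg_left e2 p4
  have r1 := mul_le_mul_of_nonneg_left (le_abs_self ⟪ν, P y v⟫) (mul_nonneg p3 p1)
  have r2 := mul_le_mul_of_nonneg_left (le_abs_self ⟪ν, P y v⟫) (mul_nonneg p3 p2)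
  have r3 := mul_le_mul_of_nonneg_left (le_abs_self (fderiv ℝ φ y (P y v))) p4
  have s1 := mul_le_mul_of_nonneg_left (neg_abs_le ⟪ν, P y v⟫) (mul_nonneg p3 p1)
  have s2 := mul_le_mul_of_nonneg_left (neg_abs_le ⟪ν, P y v⟫) (mul_nonneg p3 p2)
  have s3 := mul_le_mul_of_nonneg_left (neg_abs_le (fderiv ℝ φ y (P y v))) p4
  rw [abs_le]
  constructor <;> nlinarith

theorem Loc.key0 (h : Loc m μ P O c) {ν : Sp N} {δ Λ : ℝ} (hg : GapAt μ P ν δ) (hΛ : 0 < Λ) :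
    ∃ C : ℝ, 0 < C ∧ ∀ (x : Sp N) (ρ' ρ s τ₁ τ₂ e : ℝ), 0 < e → 0 < ρ' → ρ' < ρ → 0 < s →
      closedBall x (ρ + s) ⊆ O → Up m μ (ball x ρ') (4 * s) Λ →
      μ.real (slab ν τ₁ τ₂ ∩ ball x ρ) ≤ c / 2 * s ^ m →
      μ.real (slab ν (τ₁ + e) (τ₂ - e) ∩ ball x ρ') ≤ C * s / (ρ - ρ') *
        (μ.real (slab ν τ₁ τ₂ ∩ ball x ρ) + μ.real (bad P ν τ₁ ∩ ball x ρ)) := by
  have := h.fin
  obtain ⟨L, hL, hcut⟩ := exists_cut (N := N)
  have hc := h.cpos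
  have hδ := hg.1
  refine ⟨4 ^ (m + 1) * Λ / c * L * (1 + 2 * ‖ν‖ / δ), by positivity, ?_⟩
  intro x ρ' ρ s τ₁ τ₂ e he hρ' hρ hs hO hU hM
  have hd : 0 < ρ - ρ' := sub_pos.2 hρ
  have hS : 0 ≤ μ.real (slab ν τ₁ τ₂ ∩ ball x ρ) := measureReal_nonneg
  have hB : 0 ≤ μ.real (bad P ν τ₁ ∩ ball x ρ) := measureReal_nonneg
  by_cases hτ : τ₂ - e ≤ τ₁ + e
  · have : slab ν (τ₁ + e) (τ₂ - e) ∩ ball x ρ' = ∅ := by
      ext y
      simp only [slab, mem_inter_iff, mem_ofPred_eq, mem_empty_iff_false, iff_false]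
      rintro ⟨⟨h1, h2⟩, -⟩
      linarith
    rw [this, measureReal_empty]
    positivity
  have hτ' : τ₁ + e < τ₂ - e := not_le.1 hτ
  obtain ⟨φ, hφ, cs, hφB, φ0, φ1, hφL⟩ := hcut x ρ' ρ hρ'.le hρ
  obtain ⟨ha, a0, a1, a2⟩ := stp_Key τ₁ he
  obtain ⟨hb, b0, b1, b2⟩ := stp_Key (τ₂ - e) he
  set a : ℝ → ℝ := fun t => Real.smoothTransition ((t - τ₁) / e) with ha_def
  set b : ℝ → ℝ := fun t => Real.smoothTransition ((t - (τ₂ - e)) / e) with hb_def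
  have hab : ∀ t, b t ≤ a t := fun t =>
    Real.smoothTransition.monotone (div_le_div_of_nonneg_right (by linarith) he.le)
  have hab1 : ∀ t, 0 ≤ a t - b t ∧ a t - b t ≤ 1 := fun t =>
    ⟨sub_nonneg.2 (hab t), by have := (a0 t).2.1; have := (b0 t).1; simp only [ha_def, hb_def]; linarith⟩
  have hz : ∀ y : Sp N, y ∉ slab ν τ₁ τ₂ → a ⟪ν, y⟫ - b ⟪ν, y⟫ = 0 := by
    intro y hy
    simp only [slab, mem_ofPred_eq, not_and_or, not_lt] at hy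
    simp only [ha_def, hb_def]
    rcases hy with hy | hy
    · rw [a1 _ hy, b1 _ (by linarith), sub_zero]
    · rw [a2 _ (by linarith), b2 _ (by linarith), sub_self]
  have hBO : ball x ρ ⊆ O :=
    (ball_subset_closedBall.trans (closedBall_subset_closedBall (by linarith))).trans hO
  have hi : ContDiff ℝ 1 (fun y : Sp N => ⟪ν, y⟫) := (innerSL ℝ ν).contDiff
  have hf : ContDiff ℝ 1 (fun y : Sp N => (a ⟪ν, y⟫ - b ⟪ν, y⟫) * φ y) :=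
    ((ha.comp hi).sub (hb.comp hi)).mul hφ
  have csf : HasCompactSupport (fun y : Sp N => (a ⟪ν, y⟫ - b ⟪ν, y⟫) * φ y) := cs.mul_left
  have hG : IsOpen (slab ν (τ₁ + e) (τ₂ - e) ∩ ball x ρ') :=
    ((isOpen_lt continuous_const hi.continuous).inter
      (isOpen_lt hi.continuous continuous_const)).inter isOpen_ball
  have hM' : ∫ y, (a ⟪ν, y⟫ - b ⟪ν, y⟫) * φ y ∂μ ≤ c / 2 * s ^ m := by
    have := int_le (μ := μ) (f := fun y : Sp N => (a ⟪ν, y⟫ - b ⟪ν, y⟫) * φ y)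
      (S := slab ν τ₁ τ₂ ∩ ball x ρ) (L := 1) (by
        intro y hy
        rw [mem_inter_iff, not_and_or] at hy
        rcases hy with hy | hy
        · rw [hz y hy, zero_mul]
        · rw [image_eq_zero_of_notMem_tsupport fun h' => hy (hφB h'), mul_zero]) (by
        intro y
        rw [abs_of_nonneg (mul_nonneg (hab1 _).1 (φ0 y).1)]
        exact mul_le_one₀ (hab1 _).2 (φ0 y).1 (φ0 y).2)
    have h2 := le_abs_self (∫ y, (a ⟪ν, y⟫ - b ⟪ν, y⟫) * φ y ∂μ)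
    linarith
  have hms := h.ms hf (fun y => mul_nonneg (hab1 _).1 (φ0 y).1) csf hG (by
      rintro y ⟨⟨h1, h2⟩, h3⟩
      simp only [ha_def, hb_def]
      rw [a2 _ h1.le, b1 _ h2.le, φ1 y h3, sub_zero, mul_one]) hs hΛ hM' (by
      rintro y ⟨-, hy⟩
      refine (closedBall_subset_closedBall' ?_).trans hO
      have := mem_ball.1 hy
      linarith) (fun y hy => hU y hy.2)
  have fa := h.flux hg ha a0 a1 hφ cs hφB hBO (fun y => (φ0 y).1) hφL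
  have fb := h.flux (τ := τ₁) hg hb b0 (fun t ht => b1 t (by linarith)) hφ cs hφB hBO
    (fun y => (φ0 y).1) hφL
  have f3 := int_le (μ := μ) (f := fun y : Sp N => (a ⟪ν, y⟫ - b ⟪ν, y⟫) * ‖fderiv ℝ φ y‖)
      (S := slab ν τ₁ τ₂ ∩ ball x ρ) (L := L / (ρ - ρ')) (by
        intro y hy
        rw [mem_inter_iff, not_and_or] at hy
        rcases hy with hy | hy
        · rw [hz y hy, zero_mul]
        · have : fderiv ℝ φ y = 0 := by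
            by_contra h'
            exact hy (hφB (support_fderiv_subset ℝ h'))
          rw [this, norm_zero, mul_zero]) (by
        intro y
        rw [abs_of_nonneg (mul_nonneg (hab1 _).1 (norm_nonneg _))]
        exact (mul_le_of_le_one_left (norm_nonneg _) (hab1 _).2).trans (hφL y))
  have ia : Integrable (fun y => φ y * deriv a ⟪ν, y⟫ * ‖P y ν‖ ^ 1) μ :=
    h.int_nP (hφ.continuous.mul ((ha.continuous_deriv le_rfl).comp hi.continuous))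
      cs.mul_right ν 1
  have ib : Integrable (fun y => φ y * deriv b ⟪ν, y⟫ * ‖P y ν‖ ^ 1) μ :=
    h.int_nP (hφ.continuous.mul ((hb.continuous_deriv le_rfl).comp hi.continuous))
      cs.mul_right ν 1
  have ic : Integrable (fun y : Sp N => (a ⟪ν, y⟫ - b ⟪ν, y⟫) * ‖fderiv ℝ φ y‖) μ :=
    ((((ha.comp hi).sub (hb.comp hi)).continuous).mul
      (hφ.continuous_fderiv one_ne_zero).norm).integrable_of_hasCompactSupport
      ((cs.fderiv ℝ).norm.mul_left)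
  have hint : ∫ y, tg P (fun y : Sp N => (a ⟪ν, y⟫ - b ⟪ν, y⟫) * φ y) y ∂μ ≤
      ∫ y, φ y * deriv a ⟪ν, y⟫ * ‖P y ν‖ ^ 1 ∂μ + ∫ y, φ y * deriv b ⟪ν, y⟫ * ‖P y ν‖ ^ 1 ∂μ +
        ∫ y, (a ⟪ν, y⟫ - b ⟪ν, y⟫) * ‖fderiv ℝ φ y‖ ∂μ := by
    have iab : Integrable (fun y => φ y * deriv a ⟪ν, y⟫ * ‖P y ν‖ ^ 1 +
        φ y * deriv b ⟪ν, y⟫ * ‖P y ν‖ ^ 1) μ := ia.add ib
    rw [← integral_add ia ib, ← integral_add iab ic]
    refine integral_mono_of_nonneg (Eventually.of_forall fun y => norm_nonneg _) (iab.add ic)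
      (Eventually.of_forall fun y => ?_)
    exact tg_Key h ν ha hb hφ (fun t => (a0 t).2.2) (fun t => (b0 t).2.2) hab
      (fun y => (φ0 y).1) y
  have f3' := (le_abs_self _).trans f3
  refine hms.trans ?_
  have hK : 0 ≤ 4 ^ (m + 1) * Λ / c * s := by positivity
  have hq : 0 ≤ ‖ν‖ / δ := by positivity
  have hL' : 0 ≤ L / (ρ - ρ') := by positivity
  have e1 : L / (ρ - ρ') * ‖ν‖ / δ = L / (ρ - ρ') * (‖ν‖ / δ) := by ring
  have e2 : 4 ^ (m + 1) * Λ / c * L * (1 + 2 * ‖ν‖ / δ) * s / (ρ - ρ') *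
      (μ.real (slab ν τ₁ τ₂ ∩ ball x ρ) + μ.real (bad P ν τ₁ ∩ ball x ρ)) =
      4 ^ (m + 1) * Λ / c * s * (L / (ρ - ρ') * (1 + 2 * (‖ν‖ / δ)) *
      (μ.real (slab ν τ₁ τ₂ ∩ ball x ρ) + μ.real (bad P ν τ₁ ∩ ball x ρ))) := by ring
  rw [e2]
  refine mul_le_mul_of_nonneg_left ?_ hK
  rw [e1] at fa fb
  have g1 := mul_nonneg (mul_nonneg hL' hq) hS
  have g2 := mul_nonneg hL' hB
  nlinarith

theorem Loc.key (h : Loc m μ P O c) {ν : Sp N} {δ Λ : ℝ} (hg : GapAt μ P ν δ) (hΛ : 0 < Λ) :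
    ∃ C : ℝ, 0 < C ∧ ∀ (x : Sp N) (ρ' ρ s τ₁ τ₂ : ℝ), 0 < ρ' → ρ' < ρ → 0 < s →
      closedBall x (ρ + s) ⊆ O → Up m μ (ball x ρ') (4 * s) Λ →
      μ.real (slab ν τ₁ τ₂ ∩ ball x ρ) ≤ c / 2 * s ^ m →
      μ.real (slab ν τ₁ τ₂ ∩ ball x ρ') ≤ C * s / (ρ - ρ') *
        (μ.real (slab ν τ₁ τ₂ ∩ ball x ρ) + μ.real (bad P ν τ₁ ∩ ball x ρ)) := by
  have := h.fin
  obtain ⟨C, hC, hk⟩ := h.key0 hg hΛ
  refine ⟨C, hC, fun x ρ' ρ s τ₁ τ₂ hρ' hρ hs hO hU hM => ?_⟩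
  have hmono : Monotone fun n : ℕ =>
      slab ν (τ₁ + 1 / ((n : ℝ) + 1)) (τ₂ - 1 / ((n : ℝ) + 1)) ∩ ball x ρ' := by
    rintro n k hnk y ⟨⟨h1, h2⟩, h3⟩
    have : 1 / ((k : ℝ) + 1) ≤ 1 / ((n : ℝ) + 1) := Nat.one_div_le_one_div hnk
    exact ⟨⟨by linarith, by linarith⟩, h3⟩
  have hun : ⋃ n : ℕ, slab ν (τ₁ + 1 / ((n : ℝ) + 1)) (τ₂ - 1 / ((n : ℝ) + 1)) ∩ ball x ρ' =
      slab ν τ₁ τ₂ ∩ ball x ρ' := by
    ext y
    simp only [mem_iUnion, mem_inter_iff, slab, mem_ofPred_eq]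
    constructor
    · rintro ⟨n, ⟨h1, h2⟩, h3⟩
      have : 0 < 1 / ((n : ℝ) + 1) := Nat.one_div_pos_of_nat
      exact ⟨⟨by linarith, by linarith⟩, h3⟩
    · rintro ⟨⟨h1, h2⟩, h3⟩
      obtain ⟨n, hn⟩ := exists_nat_one_div_lt
        (lt_min (sub_pos.2 h1) (sub_pos.2 h2) : 0 < min (⟪ν, y⟫ - τ₁) (τ₂ - ⟪ν, y⟫))
      have h4 := min_le_left (⟪ν, y⟫ - τ₁) (τ₂ - ⟪ν, y⟫)
      have h5 := min_le_right (⟪ν, y⟫ - τ₁) (τ₂ - ⟪ν, y⟫)
      exact ⟨n, ⟨by linarith, by linarith⟩, h3⟩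
  have ht := tendsto_measure_iUnion_atTop (μ := μ) hmono
  rw [hun] at ht
  have ht' := (ENNReal.tendsto_toReal (measure_ne_top μ _)).comp ht
  refine le_of_tendsto' ht' fun n => ?_
  exact hk x ρ' ρ s τ₁ τ₂ _ Nat.one_div_pos_of_nat hρ' hρ hs hO hU hM

end Vale.Agent.P214
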