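import Vale.Agent.P214.Defs

/-! P214 Kit (owner helper61). Helper names end with `_Kit`.
Cutoffs. `Real.smoothTransition.contDiff`, `.monotone`, `.one_of_one_le`, `.zero_of_nonpos`,
`Monotone.deriv_nonneg` or `Antitone.deriv_nonpos`; the derivative of `smoothTransition` is continuous and vanishes
outside `[0, 1]` (locally constant there), so it is bounded (`IsCompact.exists_bound_of_continuousOn`).
`bump_fderiv`: `hasStrictFDerivAt_norm_sq` or `HasFDerivAt.norm_sq`, chain rule.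
`exists_cut`: `ρ₁ = (ρ + ρ') / 2`, `φ y = smoothTransition ((ρ₁ ^ 2 - ‖y - x‖ ^ 2) / (ρ₁ ^ 2 - ρ' ^ 2))`;
it vanishes off `closedBall x ρ₁` (`HasCompactSupport.intro`, `closure_minimal`); the derivative vanishes for
`‖y - x‖ > ρ₁` and is at most `B * 2 ρ₁ / (ρ₁ ^ 2 - ρ' ^ 2) ≤ 4 B / (ρ - ρ')` otherwise.
-/

namespace Vale.Agent.P214

open MeasureTheory Set Filter Topology Metric
open scoped ENNReal RealInnerProductSpace

variable {m N : ℕ} {μ : Measure (Sp N)} {P : Sp N → Sp N →L[ℝ] Sp N} {O : Set (Sp N)} {c : ℝ}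

theorem st_Kit : ContDiff ℝ 1 Real.smoothTransition := Real.smoothTransition.contDiff (n := 1)

theorem st_deriv : ∃ B : ℝ, 0 < B ∧ ∀ s, 0 ≤ deriv Real.smoothTransition s ∧
    deriv Real.smoothTransition s ≤ B ∧ (s < 0 → deriv Real.smoothTransition s = 0) := by
  obtain ⟨C, hC⟩ := (isCompact_Icc (a := (0 : ℝ)) (b := 1)).exists_bound_of_continuousOn
    (st_Kit.continuous_deriv le_rfl).continuousOn
  have h0 : ∀ s < 0, deriv Real.smoothTransition s = 0 := fun s hs => by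
    have h : Real.smoothTransition =ᶠ[𝓝 s] fun _ => 0 := by
      filter_upwards [gt_mem_nhds hs] with y hy using Real.smoothTransition.zero_of_nonpos hy.le
    rw [h.deriv_eq, deriv_const]
  have h1 : ∀ s > 1, deriv Real.smoothTransition s = 0 := fun s hs => by
    have h : Real.smoothTransition =ᶠ[𝓝 s] fun _ => 1 := by
      filter_upwards [lt_mem_nhds hs] with y hy using Real.smoothTransition.one_of_one_le hy.le
    rw [h.deriv_eq, deriv_const]
  refine ⟨|C| + 1, by positivity, fun s => ⟨Real.smoothTransition.monotone.deriv_nonneg, ?_, h0 s⟩⟩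
  by_cases hs : s ∈ Icc (0 : ℝ) 1
  · linarith [hC s hs, le_abs_self C, Real.le_norm_self (deriv Real.smoothTransition s)]
  · rw [mem_Icc, not_and_or, not_le, not_le] at hs
    rw [hs.elim (h0 s) (h1 s)]
    positivity

theorem gam_contDiff : ContDiff ℝ 1 gam :=
  st_Kit.comp (contDiff_const.sub (contDiff_const.mul contDiff_id))

theorem gam_mem (s : ℝ) : 0 ≤ gam s ∧ gam s ≤ 1 :=
  ⟨Real.smoothTransition.nonneg _, Real.smoothTransition.le_one _⟩

theorem gam_deriv : ∃ B : ℝ, 0 < B ∧ ∀ s, -B ≤ deriv gam s ∧ deriv gam s ≤ 0 ∧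
    (1 < s → deriv gam s = 0) := by
  obtain ⟨B, hB, h⟩ := st_deriv
  refine ⟨2 * B, by positivity, fun s => ?_⟩
  have h1 : HasDerivAt gam (deriv Real.smoothTransition (2 - 2 * s) * -(2 * 1)) s :=
    (st_Kit.differentiable one_ne_zero _).hasDerivAt.comp s
      (((hasDerivAt_id s).const_mul 2).const_sub 2)
  obtain ⟨a1, a2, a3⟩ := h (2 - 2 * s)
  rw [h1.deriv]
  exact ⟨by linarith, by linarith, fun hs => by rw [a3 (by linarith), zero_mul]⟩

theorem sq_Kit (x : Sp N) : ContDiff ℝ 1 fun y : Sp N => ‖y - x‖ ^ 2 :=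
  (contDiff_id.sub contDiff_const).norm_sq ℝ

theorem dsq_Kit (x y : Sp N) :
    HasFDerivAt (fun y : Sp N => ‖y - x‖ ^ 2) ((2 : ℝ) • innerSL ℝ (y - x)) y := by
  have h := ((hasFDerivAt_id y).sub_const x).norm_sq
  rw [ContinuousLinearMap.comp_id, two_smul, ← two_smul ℝ] at h
  exact h

theorem bump_contDiff (x : Sp N) (t : ℝ) : ContDiff ℝ 1 (bump x t) :=
  gam_contDiff.comp ((sq_Kit x).div_const _)

theorem bump_mem (x : Sp N) (t : ℝ) (y : Sp N) : 0 ≤ bump x t y ∧ bump x t y ≤ 1 := gam_mem _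

theorem bump_one {x y : Sp N} {t : ℝ} (ht : 0 < t) (h : y ∈ closedBall x (t / 2)) :
    bump x t y = 1 := by
  refine Real.smoothTransition.one_of_one_le ?_
  have h1 : ‖y - x‖ ^ 2 ≤ (t / 2) ^ 2 :=
    pow_le_pow_left₀ (norm_nonneg _) (mem_closedBall_iff_norm.1 h) 2
  have h2 : ‖y - x‖ ^ 2 / t ^ 2 ≤ 1 / 2 := by
    rw [div_le_iff₀ (by positivity)]
    nlinarith [sq_nonneg t]
  linarith

theorem bump_zero {x y : Sp N} {t : ℝ} (ht : 0 < t) (h : y ∉ ball x t) : bump x t y = 0 := by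
  refine Real.smoothTransition.zero_of_nonpos ?_
  rw [mem_ball_iff_norm, not_lt] at h
  have h2 : 1 ≤ ‖y - x‖ ^ 2 / t ^ 2 := (one_le_div (by positivity)).2 (pow_le_pow_left₀ ht.le h 2)
  linarith

theorem bump_supp (x : Sp N) {t : ℝ} (ht : 0 < t) :
    HasCompactSupport (bump x t) ∧ tsupport (bump x t) ⊆ closedBall x t :=
  ⟨HasCompactSupport.intro (isCompact_closedBall x t) fun _ hy =>
    bump_zero ht fun h => hy (ball_subset_closedBall h),
    closure_minimal (fun _ hy => by_contra fun h =>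
      hy (bump_zero ht fun h' => h (ball_subset_closedBall h'))) isClosed_closedBall⟩

theorem bump_fderiv (x : Sp N) (t : ℝ) (y v : Sp N) : fderiv ℝ (bump x t) y v =
    deriv gam (‖y - x‖ ^ 2 / t ^ 2) * (2 * ⟪y - x, v⟫ / t ^ 2) := by
  have h1 : HasFDerivAt (fun y : Sp N => ‖y - x‖ ^ 2 / t ^ 2)
      ((t ^ 2)⁻¹ • (2 : ℝ) • innerSL ℝ (y - x)) y := by
    simpa only [div_eq_mul_inv] using (dsq_Kit x y).mul_const (t ^ 2)⁻¹
  have h2 : HasFDerivAt (bump x t) _ y :=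
    (gam_contDiff.differentiable one_ne_zero _).hasDerivAt.comp_hasFDerivAt y h1
  rw [h2.fderiv]
  simp only [_root_.smul_apply, smul_eq_mul, innerSL_apply_apply]
  ring

theorem exists_cut : ∃ L : ℝ, 0 < L ∧ ∀ (x : Sp N) (ρ' ρ : ℝ), 0 ≤ ρ' → ρ' < ρ →
    ∃ φ : Sp N → ℝ, ContDiff ℝ 1 φ ∧ HasCompactSupport φ ∧ tsupport φ ⊆ ball x ρ ∧
      (∀ y, 0 ≤ φ y ∧ φ y ≤ 1) ∧ (∀ y ∈ ball x ρ', φ y = 1) ∧
      ∀ y, ‖fderiv ℝ φ y‖ ≤ L / (ρ - ρ') := by
  obtain ⟨B, hB, h⟩ := st_deriv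
  refine ⟨4 * B, by positivity, fun x ρ' ρ h0 h1 => ?_⟩
  obtain ⟨r, hr⟩ : ∃ r, r = (ρ + ρ') / 2 := ⟨_, rfl⟩
  have r1 : ρ' < r := by linarith
  have r0 : 0 < r := by linarith
  have hD : 0 < r ^ 2 - ρ' ^ 2 := by nlinarith
  have hz : ∀ y, y ∉ closedBall x r → (r ^ 2 - ‖y - x‖ ^ 2) / (r ^ 2 - ρ' ^ 2) < 0 := fun y hy => by
    rw [mem_closedBall_iff_norm, not_le] at hy
    exact div_neg_of_neg_of_pos (by nlinarith) hD
  refine ⟨fun y => Real.smoothTransition ((r ^ 2 - ‖y - x‖ ^ 2) / (r ^ 2 - ρ' ^ 2)),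
    st_Kit.comp ((contDiff_const.sub (sq_Kit x)).div_const _),
    HasCompactSupport.intro (isCompact_closedBall x r) fun y hy =>
      Real.smoothTransition.zero_of_nonpos (hz y hy).le,
    (closure_minimal (fun y hy => by_contra fun h' => Function.mem_support.1 hy
      (Real.smoothTransition.zero_of_nonpos (hz y h').le)) isClosed_closedBall).trans
      (closedBall_subset_ball (by linarith)),
    fun y => ⟨Real.smoothTransition.nonneg _, Real.smoothTransition.le_one _⟩, fun y hy => ?_,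
    fun y => ?_⟩
  · refine Real.smoothTransition.one_of_one_le ((one_le_div hD).2 ?_)
    have := pow_le_pow_left₀ (norm_nonneg _) (mem_ball_iff_norm.1 hy).le 2
    linarith
  · have d1 : HasFDerivAt (fun y : Sp N => (r ^ 2 - ‖y - x‖ ^ 2) / (r ^ 2 - ρ' ^ 2))
        ((r ^ 2 - ρ' ^ 2)⁻¹ • -((2 : ℝ) • innerSL ℝ (y - x))) y := by
      simpa only [div_eq_mul_inv] using
        ((dsq_Kit x y).const_sub (r ^ 2)).mul_const (r ^ 2 - ρ' ^ 2)⁻¹
    have d2 : HasFDerivAt (fun y : Sp N =>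
        Real.smoothTransition ((r ^ 2 - ‖y - x‖ ^ 2) / (r ^ 2 - ρ' ^ 2))) _ y :=
      (st_Kit.differentiable one_ne_zero _).hasDerivAt.comp_hasFDerivAt y d1
    obtain ⟨a1, a2, a3⟩ := h ((r ^ 2 - ‖y - x‖ ^ 2) / (r ^ 2 - ρ' ^ 2))
    have hρ : 0 < ρ - ρ' := sub_pos.2 h1
    rw [d2.fderiv]
    by_cases hy : y ∈ closedBall x r
    · rw [norm_smul, norm_smul, norm_neg, norm_smul, innerSL_apply_norm, Real.norm_of_nonneg a1,
        Real.norm_of_nonneg (inv_pos.2 hD).le, Real.norm_of_nonneg zero_le_two]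
      have b1 : (r ^ 2 - ρ' ^ 2)⁻¹ * (2 * ‖y - x‖) ≤ 4 / (ρ - ρ') := by
        rw [inv_mul_eq_div, div_le_div_iff₀ hD hρ]
        have b2 := mul_le_mul_of_nonneg_right (mem_closedBall_iff_norm.1 hy) hρ.le
        have b3 : r ^ 2 - ρ' ^ 2 = (ρ - ρ') / 2 * (r + ρ') := by rw [hr]; ring
        have b4 := mul_nonneg hρ.le h0
        rw [b3]
        linarith
      calc _ ≤ B * (4 / (ρ - ρ')) := mul_le_mul a2 b1 (by positivity) hB.le
        _ = _ := by ring
    · rw [a3 (hz y hy), zero_smul, norm_zero]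
      positivity

end Vale.Agent.P214
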