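import Vale.Agent.P214.Atom

/-! P214 Lev (owner helper61). Helper names end with `_Lev`.
Locally the support lies in the level. `half`: `Loc.upper`, `Loc.dich` with `τ₁ = ⟪ν, x⟫`, `τ₂ = τ₁ + ‖ν‖ r + 1`, so that
`bad P ν τ₁ ∩ ball x ρ ⊆ slab ∩ ball x ρ` for `ρ ≤ r` and the second alternative is impossible.
`lev`: `dens_pt` for the countably many charged levels (`Measure.countable_meas_level_set_pos`, `ae_ball_iff`),
`Loc.atom`, `half` for `ν` and for `-ν` (`GapAt` for `-ν` by `map_neg`, `norm_neg`).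
-/

namespace Vale.Agent.P214

open MeasureTheory Set Filter Topology Metric
open scoped ENNReal RealInnerProductSpace

variable {m N : ℕ} {μ : Measure (Sp N)} {P : Sp N → Sp N →L[ℝ] Sp N} {O : Set (Sp N)} {c : ℝ}

theorem Loc.half (h : Loc m μ P O c) {ν : Sp N} {δ : ℝ} (hg : GapAt μ P ν δ) {x : Sp N}
    (hx : x ∈ O) (hd : ∀ η : ℝ, 0 < η → ∀ᶠ r in 𝓝[>] (0 : ℝ),
      μ.real (closedBall x r \ {y | ⟪ν, y⟫ = ⟪ν, x⟫}) ≤ η * μ.real (closedBall x r)) :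
    ∃ r : ℝ, 0 < r ∧ ∀ᵐ y ∂μ, y ∈ ball x r → ⟪ν, y⟫ ≤ ⟪ν, x⟫ := by
  have := h.fin
  obtain ⟨e, he, hO⟩ := Metric.isOpen_iff.1 h.op x hx
  have hB : closedBall x (3 * (e / 4)) ⊆ O := (closedBall_subset_ball (by linarith)).trans hO
  obtain ⟨Λ, hΛ, hU⟩ := h.upper (by linarith : 0 < e / 4) hB
  obtain ⟨ε, hε, hD⟩ := h.dich hg hΛ
  obtain ⟨r, h1, hr, hre⟩ := ((hd (ε / Λ) (div_pos hε hΛ)).and
    (Ioo_mem_nhdsGT (by linarith : (0 : ℝ) < e / 4))).exists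
  have hlt : ∀ y ∈ ball x r, ⟪ν, y⟫ < ⟪ν, x⟫ + ‖ν‖ * r + 1 := fun y hy => by
    have h2 := real_inner_le_norm ν (y - x)
    have h3 := mul_le_mul_of_nonneg_left (mem_ball_iff_norm.1 hy).le (norm_nonneg ν)
    rw [inner_sub_right] at h2
    linarith
  have h4 : μ.real (slab ν ⟪ν, x⟫ (⟪ν, x⟫ + ‖ν‖ * r + 1) ∩ ball x r) ≤ ε * r ^ m := by
    refine (measureReal_mono fun y hy => ?_).trans (h1.trans ?_)
    · exact ⟨ball_subset_closedBall hy.2, hy.1.1.ne'⟩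
    · refine (mul_le_mul_of_nonneg_left (hU x (mem_ball_self (by linarith)) r hr hre.le)
        (div_pos hε hΛ).le).trans_eq ?_
      rw [← mul_assoc, div_mul_cancel₀ _ hΛ.ne']
  rcases hD x r _ _ hr ((closedBall_subset_closedBall (by linarith)).trans hB)
    (fun y hy t ht htr => hU y (ball_subset_ball hre.le hy) t ht (htr.trans hre.le)) h4 with
    h5 | ⟨ρ, hρ, h5⟩
  · refine ⟨r / 2, half_pos hr, ?_⟩
    filter_upwards [measure_eq_zero_iff_ae_notMem.1 ((measureReal_eq_zero_iff).1 h5)] with y hy hb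
    by_contra hc
    exact hy ⟨⟨not_le.1 hc, hlt y (ball_subset_ball (half_le_self hr.le) hb)⟩, hb⟩
  · refine absurd (measureReal_mono fun y hy => ?_) h5.not_ge
    exact ⟨⟨hy.1.2, hlt y (ball_subset_ball hρ.2 hy.2)⟩, hy.2⟩

theorem Loc.lev (h : Loc m μ P O c) {ν : Sp N} {δ : ℝ} (hg : GapAt μ P ν δ) :
    ∀ᵐ x ∂μ, x ∈ O → P x ν = 0 →
      ∃ r : ℝ, 0 < r ∧ ball x r ⊆ O ∧ ∀ᵐ y ∂μ, y ∈ ball x r → ⟪ν, y⟫ = ⟪ν, x⟫ := by
  have := h.fin
  have hm : Measurable fun y : Sp N => ⟪ν, y⟫ := by fun_prop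
  have hA := Measure.countable_meas_level_set_pos (μ := μ) hm
  have hg' : GapAt μ P (-ν) δ := ⟨hg.1, by simpa only [map_neg, norm_neg, neg_eq_zero] using hg.2⟩
  filter_upwards [h.atom hg, (ae_ball_iff hA).2 fun τ _ => dens_pt (μ := μ)
    (D := {y | ⟪ν, y⟫ = τ}) (hm (measurableSet_singleton τ)).nullMeasurableSet] with x h1 h2 hx hP
  have hd := h2 _ (h1 hx hP) rfl
  obtain ⟨r₁, hr₁, e₁⟩ := h.half hg hx hd
  obtain ⟨r₂, hr₂, e₂⟩ := h.half hg' hx (by simpa only [inner_neg_left, neg_inj] using hd)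
  obtain ⟨r₀, hr₀, hO⟩ := Metric.isOpen_iff.1 h.op x hx
  refine ⟨min r₀ (min r₁ r₂), lt_min hr₀ (lt_min hr₁ hr₂),
    (ball_subset_ball (min_le_left _ _)).trans hO, ?_⟩
  filter_upwards [e₁, e₂] with y a₁ a₂ hy
  have b₁ := a₁ (ball_subset_ball ((min_le_right _ _).trans (min_le_left _ _)) hy)
  have b₂ := a₂ (ball_subset_ball ((min_le_right _ _).trans (min_le_right _ _)) hy)
  rw [inner_neg_left, inner_neg_left] at b₂
  linarith

end Vale.Agent.P214
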