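import Vale.Agent.P214.Dens
import Vale.Agent.P214.Cov

/-! P214 MS (owner helper61). Helper names end with `_MS`.
The Michael-Simon lemma. `ms_pt`: otherwise `Loc.mono` with `lam = c / (4 s)` from a small `σ` (where `dens` holds and
`closedBall x σ ⊆ G`, so `f * bump x σ = bump x σ`) to `s` gives `c ≤ c / 2 + c / 4` (`f * bump ≤ f`).
`ms`: `S = G ∩ {dens}` has full measure in `G`; `cov` with `ν = μ.withDensity (ofReal (tg P f ·))`, `Q = univ`,
`g x = ofReal (c / (4 s) * r x ^ m)` (`ofReal_integral_eq_lintegral_ofReal`, `withDensity_apply`; `tg P f` is integrable: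
it vanishes off the compact `tsupport f`, `Loc.intOn_tg`), `measure_biUnion_le`, `ENNReal.tsum_mul_left`.
-/

namespace Vale.Agent.P214

open MeasureTheory Set Filter Topology Metric
open scoped ENNReal RealInnerProductSpace

variable {m N : ℕ} {μ : Measure (Sp N)} {P : Sp N → Sp N →L[ℝ] Sp N} {O : Set (Sp N)} {c : ℝ}

theorem Loc.ms_pt (h : Loc m μ P O c) {f : Sp N → ℝ} (hf : ContDiff ℝ 1 f) (f0 : ∀ y, 0 ≤ f y)
    (cs : HasCompactSupport f) {G : Set (Sp N)} (hG : IsOpen G) (f1 : ∀ y ∈ G, f y = 1)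
    {s : ℝ} (hs : 0 < s) (hM : ∫ y, f y ∂μ ≤ c / 2 * s ^ m) {x : Sp N} (hx : x ∈ G)
    (hO : closedBall x s ⊆ O) (hd : ∀ᶠ t in 𝓝[>] (0 : ℝ), c * t ^ m ≤ ∫ y, bump x t y ∂μ) :
    ∃ t, 0 < t ∧ t ≤ s ∧ c / (4 * s) * t ^ m ≤ ∫ y in closedBall x t, tg P f y ∂μ := by
  by_contra hn
  push Not at hn
  have := h.fin
  have hc := h.cpos
  obtain ⟨ε, hε, hεG⟩ := Metric.isOpen_iff.1 hG x hx
  have e1 : ∀ᶠ t in 𝓝[>] (0 : ℝ), t ∈ Ioo (0 : ℝ) (min ε s) :=
    Ioo_mem_nhdsGT (lt_min hε hs)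
  obtain ⟨σ, h1, h2, h3⟩ := (hd.and e1).exists
  have hσε : σ < ε := h3.trans_le (min_le_left _ _)
  have hσs : σ ≤ s := (h3.trans_le (min_le_right _ _)).le
  have key := h.mono hf f0 (lam := c / (4 * s)) h2 hσs hO
    (fun t ht => (hn t (h2.trans_le ht.1) ht.2).le)
  have a1 : ∫ y, f y * bump x σ y ∂μ = ∫ y, bump x σ y ∂μ := by
    refine integral_congr_ae (Eventually.of_forall fun y => ?_)
    by_cases hy : y ∈ ball x σ
    · simp only [f1 y (hεG (ball_subset_ball hσε.le hy)), one_mul]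
    · simp only [bump_zero h2 hy, mul_zero]
  have fi : Integrable f μ := hf.continuous.integrable_of_hasCompactSupport cs
  have a2 : ∫ y, f y * bump x s y ∂μ ≤ ∫ y, f y ∂μ := by
    refine integral_mono_of_nonneg (Eventually.of_forall fun y => ?_) fi
      (Eventually.of_forall fun y => ?_)
    · exact mul_nonneg (f0 y) (bump_mem x s y).1
    · exact mul_le_of_le_one_right (f0 y) (bump_mem x s y).2
  have p1 : 0 < σ ^ m := pow_pos h2 m
  have p2 : 0 < s ^ m := pow_pos hs m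
  have b1 : c ≤ (σ ^ m)⁻¹ * ∫ y, f y * bump x σ y ∂μ := by
    rw [a1, ← div_eq_inv_mul, le_div_iff₀ p1]
    exact h1
  have b2 : (s ^ m)⁻¹ * ∫ y, f y * bump x s y ∂μ ≤ c / 2 := by
    rw [← div_eq_inv_mul, div_le_iff₀ p2]
    exact a2.trans hM
  have b3 : c / (4 * s) * (s - σ) ≤ c / 4 := by
    have : c / (4 * s) * s = c / 4 := by field_simp
    have h4 : 0 ≤ c / (4 * s) * σ := by positivity
    nlinarith
  linarith

theorem Loc.int_tg_MS (h : Loc m μ P O c) {f : Sp N → ℝ} (hf : ContDiff ℝ 1 f)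
    (cs : HasCompactSupport f) : Integrable (tg P f) μ := by
  refine (h.intOn_tg hf cs.isCompact).integrable_of_forall_notMem_eq_zero fun y hy => ?_
  have h1 : fderiv ℝ f y = 0 := by
    by_contra h0
    exact hy (support_fderiv_subset ℝ h0)
  have h2 := h.tg_le f y
  rw [h1, norm_zero] at h2
  exact le_antisymm h2.2.1 h2.1

theorem Loc.ms (h : Loc m μ P O c) {f : Sp N → ℝ} (hf : ContDiff ℝ 1 f) (f0 : ∀ y, 0 ≤ f y)
    (cs : HasCompactSupport f) {G : Set (Sp N)} (hG : IsOpen G) (f1 : ∀ y ∈ G, f y = 1)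
    {s Λ : ℝ} (hs : 0 < s) (hΛ : 0 < Λ) (hM : ∫ y, f y ∂μ ≤ c / 2 * s ^ m)
    (hO : ∀ x ∈ G, closedBall x s ⊆ O) (hU : Up m μ G (4 * s) Λ) :
    μ.real G ≤ 4 ^ (m + 1) * Λ / c * s * ∫ y, tg P f y ∂μ := by
  have := h.fin
  have hc := h.cpos
  set S : Set (Sp N) :=
    {x | x ∈ G ∧ ∀ᶠ t in 𝓝[>] (0 : ℝ), c * t ^ m ≤ ∫ y, bump x t y ∂μ} with hS
  have hGS : μ G ≤ μ S := by
    refine measure_mono_ae ?_
    filter_upwards [h.dens] with x hx hxG
    exact ⟨hxG, hx⟩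
  have hr : ∀ x ∈ S, ∃ t, 0 < t ∧ t ≤ s ∧
      c / (4 * s) * t ^ m ≤ ∫ y in closedBall x t, tg P f y ∂μ := fun x hx =>
    h.ms_pt hf f0 cs hG f1 hs hM hx.1 (hO x hx.1) hx.2
  choose! r hr using hr
  have ti := h.int_tg_MS hf cs
  have t0 : ∀ y, 0 ≤ tg P f y := fun y => (h.tg_le f y).1
  have hν : ∀ A : Set (Sp N), MeasurableSet A →
      μ.withDensity (fun y => ENNReal.ofReal (tg P f y)) A =
        ENNReal.ofReal (∫ y in A, tg P f y ∂μ) := fun A hA => by
    rw [withDensity_apply _ hA,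
      ofReal_integral_eq_lintegral_ofReal ti.integrableOn (Eventually.of_forall t0)]
  obtain ⟨u, uS, uc, hcov, hsum⟩ := cov (μ.withDensity fun y => ENNReal.ofReal (tg P f y))
    (S := S) (Q := univ) (r := r) (R := s)
    (g := fun x => ENNReal.ofReal (c / (4 * s) * r x ^ m))
    (fun x hx => ⟨(hr x hx).1, (hr x hx).2.1⟩) (fun _ _ => subset_univ _)
    (fun x hx => by
      rw [hν _ measurableSet_closedBall]
      exact ENNReal.ofReal_le_ofReal (hr x hx).2.2)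
  rw [hν _ MeasurableSet.univ, Measure.restrict_univ] at hsum
  have hK : (0 : ℝ) ≤ 4 ^ (m + 1) * Λ / c * s := by positivity
  have hI : 0 ≤ ∫ y, tg P f y ∂μ := integral_nonneg t0
  have hb : ∀ x : u, μ (closedBall (x : Sp N) (4 * r x)) ≤
      ENNReal.ofReal (4 ^ (m + 1) * Λ / c * s) * ENNReal.ofReal (c / (4 * s) * r x ^ m) := by
    intro x
    have hx := uS x.2
    have h1 := hU x hx.1 (4 * r x) (by linarith [(hr x hx).1]) (by linarith [(hr x hx).2.1])
    rw [← ENNReal.ofReal_mul hK, ← ofReal_measureReal (measure_ne_top _ _)]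
    refine ENNReal.ofReal_le_ofReal (h1.trans (le_of_eq ?_))
    rw [mul_pow]
    field_simp
    ring
  have hfin : μ G ≤ ENNReal.ofReal (4 ^ (m + 1) * Λ / c * s * ∫ y, tg P f y ∂μ) := by
    calc μ G ≤ μ (⋃ x ∈ u, closedBall x (4 * r x)) := hGS.trans (measure_mono hcov)
      _ ≤ ∑' x : u, μ (closedBall (x : Sp N) (4 * r x)) := measure_biUnion_le μ uc _
      _ ≤ ∑' x : u, ENNReal.ofReal (4 ^ (m + 1) * Λ / c * s) *
          ENNReal.ofReal (c / (4 * s) * r x ^ m) := ENNReal.tsum_le_tsum hb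
      _ ≤ ENNReal.ofReal (4 ^ (m + 1) * Λ / c * s) * ENNReal.ofReal (∫ y, tg P f y ∂μ) := by
          rw [ENNReal.tsum_mul_left]
          exact mul_le_mul_right hsum _
      _ = _ := (ENNReal.ofReal_mul hK).symm
  exact ENNReal.toReal_le_of_le_ofReal (mul_nonneg hK hI) hfin

end Vale.Agent.P214
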