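import Vale.Agent.P214.Lev
import Vale.Agent.P214.Const

/-! P214 Main (owner helper61). Helper names end with `_Main`.
Assembly. `ae_flat`: for `S ∈ F` and `i : Fin N` put `ν = e i - S.starProjection (e i) ∈ Sᗮ`; `Loc.lev`, `Loc.tilt_zero` for
these countably many `ν`; at `x` with `T x = S` take the least radius over `i`; `⟪ν i, y - x⟫ = 0` for all `i` gives `y - x ∈ S`,
`P y (ν i) = 0` for all `i` gives `T y ≤ S`, `Submodule.eq_of_le_of_finrank_eq`; `IntVarifold.flat`.
`main`: `null_of_lower` in each ball (`Loc.lower`), countably many balls cover `U` (`TopologicalSpace.countable_cover_nhdsWithin`).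
-/

namespace Vale.Agent.P214

open MeasureTheory Set Filter Topology Metric
open scoped ENNReal RealInnerProductSpace

variable {m N : ℕ} {μ : Measure (Sp N)} {P : Sp N → Sp N →L[ℝ] Sp N} {O : Set (Sp N)} {c : ℝ}

variable {U : Set (Sp N)}

theorem mem_Main {S : Submodule ℝ (Sp N)} {w : Sp N}
    (h : ∀ i, ⟪Sᗮ.starProjection (EuclideanSpace.single i 1), w⟫ = 0) : w ∈ S := by
  rw [← S.orthogonal_orthogonal, ← Submodule.starProjection_apply_eq_zero_iff]
  ext i
  have h1 := h i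
  rw [Submodule.inner_starProjection_left_eq_right, EuclideanSpace.inner_single_left] at h1
  simpa using h1

theorem IntVarifold.ae_flat (V : IntVarifold m N U) (hm : 1 ≤ m) (hV : V.Stationary)
    {F : Set (Submodule ℝ (Sp N))} (hF : F.Countable) (hG : Gap F) (hT : ∀ᵐ x ∂V.μ, V.T x ∈ F)
    {x₀ : Sp N} {R : ℝ} (hB : closedBall x₀ R ⊆ U) :
    ∀ᵐ x ∂V.μ.restrict (ball x₀ R), V.FlatRegular x := by
  have hL := V.loc hm hV hB
  have hT' := ae_restrict_of_ae (s := ball x₀ R) hT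
  have h1 := (ae_ball_iff hF).2 fun S hS => ae_all_iff.2 fun i : Fin N =>
    (hG S hS _ (Sᗮ.starProjection_apply_mem (EuclideanSpace.single i 1))).elim fun δ h =>
      hL.lev (δ := δ) ⟨h.1, hT'.mono fun y hy => h.2 _ hy⟩
  filter_upwards [h1, hT', ae_restrict_mem measurableSet_ball,
    ae_restrict_of_ae Measure.support_mem_ae] with x h1 h2 h3 h4
  choose r r0 r1 r2 using fun i => h1 _ h2 i h3
    ((Submodule.starProjection_apply_eq_zero_iff _).2 (Submodule.starProjection_apply_mem _ _))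
  have e1 : ∀ᶠ ρ in 𝓝[>] (0 : ℝ), ∀ i, ρ < r i / 4 := eventually_all.2 fun i =>
    nhdsWithin_le_nhds (gt_mem_nhds (div_pos (r0 i) four_pos))
  have e2 : ∀ᶠ ρ in 𝓝[>] (0 : ℝ), closedBall x ρ ⊆ ball x₀ R :=
    nhdsWithin_le_nhds (eventually_closedBall_subset (isOpen_ball.mem_nhds h3))
  obtain ⟨ρ, ⟨a1, a2⟩, a3⟩ := ((e1.and e2).and self_mem_nhdsWithin).exists
  refine V.flat hm hV hB (V.dim x) h4 a3 (ball_subset_closedBall.trans a2) ?_
  filter_upwards [ae_all_iff.2 r2, ae_all_iff.2 fun i => hL.tilt_zero (r0 i) (r1 i) (r2 i)]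
    with y b1 b2 hy
  refine ⟨mem_Main fun i => ?_, Submodule.eq_of_le_of_finrank_eq
    (fun w hw => mem_Main fun i => ?_) ((V.dim y).trans (V.dim x).symm)⟩
  · rw [inner_sub_right, b1 i (ball_subset_ball (by linarith [a1 i, r0 i]) hy), sub_self]
  · exact Submodule.inner_left_of_mem_orthogonal hw
      ((Submodule.starProjection_apply_eq_zero_iff _).1 (b2 i (ball_subset_ball (a1 i).le hy)))

theorem IntVarifold.main (V : IntVarifold m N U) (hm : 1 ≤ m) (hU : IsOpen U) (hV : V.Stationary)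
    {F : Set (Submodule ℝ (Sp N))} (hF : F.Countable) (hG : Gap F) (hT : ∀ᵐ x ∂V.μ, V.T x ∈ F) :
    μHE[m] {p | p ∈ V.μ.support ∩ U ∧ ¬V.FlatRegular p} = 0 := by
  have h1 : ∀ x, ∃ R : ℝ, x ∈ U → 0 < R ∧ closedBall x R ⊆ U := fun x => by
    by_cases hx : x ∈ U
    · obtain ⟨R, h2, h3⟩ := nhds_basis_closedBall.mem_iff.1 (hU.mem_nhds hx)
      exact ⟨R, fun _ => ⟨h2, h3⟩⟩
    · exact ⟨0, fun h => (hx h).elim⟩
  choose R hR using h1
  obtain ⟨t, t1, t2, t3⟩ := TopologicalSpace.countable_cover_nhdsWithin (s := U)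
    (f := fun x => ball x (R x)) fun x hx =>
      mem_nhdsWithin_of_mem_nhds (ball_mem_nhds x (hR x hx).1)
  refine measure_mono_null (t := ⋃ x ∈ t,
    {p | p ∈ V.μ.support ∩ ball x (R x) ∧ ¬V.FlatRegular p}) (fun p hp => ?_)
    ((measure_biUnion_null_iff t2).2 fun x hx => ?_)
  · obtain ⟨x, hx, h2⟩ := mem_iUnion₂.1 (t3 hp.1.2)
    exact mem_iUnion₂.2 ⟨x, hx, ⟨hp.1.1, h2⟩, hp.2⟩
  have hB := (hR x (t1 hx)).2
  have hL := V.loc hm hV hB
  have := hL.fin
  refine null_of_lower (ν := V.μ.restrict (ball x (R x))) (a := c0 m / 2 / 2 ^ m)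
    (div_pos hL.cpos (by positivity)) (fun p hp => ?_)
    (measure_mono_null (fun p hp => hp.2) (ae_iff.1 (V.ae_flat hm hV hF hG hT hB)))
  have h2 : p ∈ (V.μ.restrict (ball x (R x))).support :=
    Measure.interior_inter_support ⟨by rw [isOpen_ball.interior_eq]; exact hp.1.2, hp.1.1⟩
  filter_upwards [nhdsWithin_le_nhds (eventually_closedBall_subset (isOpen_ball.mem_nhds hp.1.2)),
    self_mem_nhdsWithin] with s h3 h4
  have e : 2 * (s / 2) = s := by ring
  have h5 := hL.lower h2 (t := s / 2) (half_pos h4) (by rwa [e])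
  rw [e, div_pow] at h5
  refine le_trans (le_of_eq ?_) (h5.trans (measureReal_mono ball_subset_closedBall))
  ring

end Vale.Agent.P214
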