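import Vale.Agent.P214.Prj

/-! P214 Mono (owner helper61). Helper names end with `_Mono`.
Weighted monotonicity. `der_I`: `hasDerivAt_integral_of_dominated_loc_of_deriv_le` on
`ball t (t / 2)`: for `s` there the integrand vanishes off `closedBall x (2 t)` and is bounded; use the bound
`(closedBall x (2 t)).indicator fun _ => C`.
`ineq_I`: `h.s2` for `g = f * bump x t` (`fderiv_mul`, `bump_fderiv`, `Loc.inner_P`, `Loc.norm_P`: since `deriv gam ≤ 0`
replacing `‖P (y - x)‖ ^ 2` by `‖y - x‖ ^ 2` lowers the integrand), `|bump * df (P (y - x))| ≤ t * indicator (tg P f)`.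
`mono`: `s ↦ (s ^ m)⁻¹ * I s + lam * s` has nonnegative derivative on `[σ, ρ]` (`monotoneOn_of_deriv_nonneg`).
-/

namespace Vale.Agent.P214

open MeasureTheory Set Filter Topology Metric
open scoped ENNReal RealInnerProductSpace

variable {m N : ℕ} {μ : Measure (Sp N)} {P : Sp N → Sp N →L[ℝ] Sp N} {O : Set (Sp N)} {c : ℝ}

theorem Loc.der_Mono (h : Loc m μ P O c) {f : Sp N → ℝ} (hf : Continuous f) (x : Sp N) {t : ℝ}
    (ht : 0 < t) :
    Integrable (fun y => f y * (deriv gam (‖y - x‖ ^ 2 / t ^ 2) * (-2 * ‖y - x‖ ^ 2 / t ^ 3))) μ ∧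
    HasDerivAt (fun s => ∫ y, f y * bump x s y ∂μ)
      (∫ y, f y * (deriv gam (‖y - x‖ ^ 2 / t ^ 2) * (-2 * ‖y - x‖ ^ 2 / t ^ 3)) ∂μ) t := by
  have := h.fin
  obtain ⟨B, hB, hg⟩ := gam_deriv
  obtain ⟨M, hM⟩ := (isCompact_closedBall x (2 * t)).exists_bound_of_continuousOn hf.continuousOn
  have hM0 : 0 ≤ M := (norm_nonneg _).trans (hM x (mem_closedBall_self (by linarith)))
  have hc : Continuous (deriv gam) := gam_contDiff.continuous_deriv le_rfl
  have hb : ∀ s, Continuous fun y => f y * bump x s y := fun s =>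
    hf.mul (bump_contDiff x s).continuous
  refine hasDerivAt_integral_of_dominated_loc_of_deriv_le (s := Ioo (t / 2) (2 * t))
    (F := fun s y => f y * bump x s y)
    (F' := fun s y => f y * (deriv gam (‖y - x‖ ^ 2 / s ^ 2) * (-2 * ‖y - x‖ ^ 2 / s ^ 3)))
    (bound := fun _ => M * (B * (2 * (2 * t) ^ 2 / (t / 2) ^ 3)))
    (Ioo_mem_nhds (by linarith) (by linarith))
    (Eventually.of_forall fun s => (hb s).aestronglyMeasurable)
    ((hb t).integrable_of_hasCompactSupport (bump_supp x ht).1.mul_left)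
    (Continuous.aestronglyMeasurable (by fun_prop)) (Eventually.of_forall fun y s hs => ?_)
    (integrable_const _) (Eventually.of_forall fun y s hs => ?_)
  · have hs0 : 0 < s := lt_trans (by linarith) hs.1
    by_cases hy : y ∈ closedBall x (2 * t)
    · rw [norm_mul, norm_mul]
      have h1 : ‖y - x‖ ≤ 2 * t := mem_closedBall_iff_norm.1 hy
      have h2 : ‖deriv gam (‖y - x‖ ^ 2 / s ^ 2)‖ ≤ B :=
        abs_le.2 ⟨(hg _).1, (hg _).2.1.trans hB.le⟩
      have h3 : ‖-2 * ‖y - x‖ ^ 2 / s ^ 3‖ ≤ 2 * (2 * t) ^ 2 / (t / 2) ^ 3 := by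
        rw [neg_mul, neg_div, norm_neg, Real.norm_of_nonneg (by positivity)]
        have := hs.1.le
        gcongr
      exact mul_le_mul (hM y hy) (mul_le_mul h2 h3 (norm_nonneg _) hB.le) (by positivity) hM0
    · have h1 : 2 * t < ‖y - x‖ := not_le.1 fun h => hy (mem_closedBall_iff_norm.2 h)
      have h2 : 1 < ‖y - x‖ ^ 2 / s ^ 2 := by
        rw [one_lt_div (by positivity)]
        exact pow_lt_pow_left₀ (hs.2.trans h1) hs0.le two_ne_zero
      rw [(hg _).2.2 h2, zero_mul, mul_zero, norm_zero]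
      positivity
  · have hs0 : s ≠ 0 := (lt_trans (by linarith) hs.1).ne'
    have h1 : HasDerivAt (fun s : ℝ => ‖y - x‖ ^ 2 / s ^ 2) (-2 * ‖y - x‖ ^ 2 / s ^ 3) s := by
      refine ((hasDerivAt_const s (‖y - x‖ ^ 2)).div (hasDerivAt_pow 2 s)
        (pow_ne_zero 2 hs0)).congr_deriv ?_
      simp only [Nat.cast_ofNat, Nat.add_one_sub_one, pow_one]
      field_simp
      ring
    exact (((gam_contDiff.differentiable one_ne_zero _).hasDerivAt.comp s h1).const_mul (f y) :)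

theorem Loc.der_I (h : Loc m μ P O c) {f : Sp N → ℝ} (hf : Continuous f) (x : Sp N) {t : ℝ}
    (ht : 0 < t) : HasDerivAt (fun s => ∫ y, f y * bump x s y ∂μ)
      (∫ y, f y * (deriv gam (‖y - x‖ ^ 2 / t ^ 2) * (-2 * ‖y - x‖ ^ 2 / t ^ 3)) ∂μ) t :=
  (h.der_Mono hf x ht).2

theorem Loc.ineq_I (h : Loc m μ P O c) {f : Sp N → ℝ} (hf : ContDiff ℝ 1 f) (f0 : ∀ y, 0 ≤ f y)
    {x : Sp N} {t : ℝ} (ht : 0 < t) (hB : closedBall x t ⊆ O) :
    m * ∫ y, f y * bump x t y ∂μ - t * ∫ y in closedBall x t, tg P f y ∂μ ≤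
      t * ∫ y, f y * (deriv gam (‖y - x‖ ^ 2 / t ^ 2) * (-2 * ‖y - x‖ ^ 2 / t ^ 3)) ∂μ := by
  have := h.fin
  obtain ⟨B, hB', hg⟩ := gam_deriv
  have g1 : ContDiff ℝ 1 fun y => f y * bump x t y := hf.mul (bump_contDiff x t)
  have g2 : HasCompactSupport fun y => f y * bump x t y := (bump_supp x ht).1.mul_left
  have g3 : tsupport (fun y => f y * bump x t y) ⊆ O :=
    (tsupport_mul_subset_right.trans (bump_supp x ht).2).trans hB
  have i1 : Integrable (fun y => f y * bump x t y) μ :=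
    g1.continuous.integrable_of_hasCompactSupport g2
  have i2 := h.int_ap (w := fun y => y - x) (g1.continuous_fderiv one_ne_zero) (g2.fderiv ℝ)
    (by fun_prop)
  have i3 := (h.der_Mono hf.continuous x ht).1
  have i4 : Integrable ((closedBall x t).indicator (tg P f)) μ :=
    (h.intOn_tg hf (isCompact_closedBall x t)).integrable_indicator measurableSet_closedBall
  have key := integral_mono (((i1.const_mul (m : ℝ)).sub (i4.const_mul t)).sub (i3.const_mul t))
    ((i1.const_mul (m : ℝ)).add i2) fun y => by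
    have e := fderiv_fun_mul (hf.differentiable one_ne_zero y)
      ((bump_contDiff x t).differentiable one_ne_zero y)
    have a1 : -(t * (closedBall x t).indicator (tg P f) y) ≤
        bump x t y * fderiv ℝ f y (P y (y - x)) := by
      by_cases hy : y ∈ closedBall x t
      · rw [indicator_of_mem hy]
        refine (abs_le.1 ?_).1
        obtain ⟨b0, -, b1⟩ := h.tg_le f y
        rw [abs_mul, abs_of_nonneg (bump_mem x t y).1, mul_comm t]
        refine (mul_le_of_le_one_left (abs_nonneg _) (bump_mem x t y).2).trans ((b1 _).trans ?_)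
        exact mul_le_mul_of_nonneg_left (mem_closedBall_iff_norm.1 hy) b0
      · rw [indicator_of_notMem hy, bump_zero ht fun h' => hy (ball_subset_closedBall h')]
        simp
    have a2 : ‖P y (y - x)‖ ^ 2 ≤ ‖y - x‖ ^ 2 :=
      pow_le_pow_left₀ (norm_nonneg _) (h.norm_P y _) 2
    have a3 : f y * (deriv gam (‖y - x‖ ^ 2 / t ^ 2) * (2 * ‖y - x‖ ^ 2 / t ^ 2)) ≤
        f y * (deriv gam (‖y - x‖ ^ 2 / t ^ 2) * (2 * ‖P y (y - x)‖ ^ 2 / t ^ 2)) :=
      mul_le_mul_of_nonneg_left (mul_le_mul_of_nonpos_left (by gcongr) (hg _).2.1) (f0 y)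
    have a4 : t * (f y * (deriv gam (‖y - x‖ ^ 2 / t ^ 2) * (-2 * ‖y - x‖ ^ 2 / t ^ 3))) =
        -(f y * (deriv gam (‖y - x‖ ^ 2 / t ^ 2) * (2 * ‖y - x‖ ^ 2 / t ^ 2))) := by
      field_simp
    simp only [Pi.sub_apply, Pi.add_apply, e, add_apply, smul_apply,
      smul_eq_mul, bump_fderiv, h.inner_P, a4]
    linarith
  have e0 := h.s2 _ g1 g2 g3 x
  simp only [Pi.sub_apply, Pi.add_apply] at key
  have i5 : Integrable (fun y => m * (f y * bump x t y) -
      t * (closedBall x t).indicator (tg P f) y) μ := (i1.const_mul (m : ℝ)).sub (i4.const_mul t)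
  rw [e0, integral_sub i5 (i3.const_mul t),
    integral_sub (i1.const_mul (m : ℝ)) (i4.const_mul t), integral_const_mul, integral_const_mul,
    integral_const_mul, integral_indicator measurableSet_closedBall] at key
  linarith

theorem Loc.mono (h : Loc m μ P O c) {f : Sp N → ℝ} (hf : ContDiff ℝ 1 f) (f0 : ∀ y, 0 ≤ f y)
    {x : Sp N} {σ ρ lam : ℝ} (hσ : 0 < σ) (hσρ : σ ≤ ρ) (hB : closedBall x ρ ⊆ O)
    (hJ : ∀ t ∈ Icc σ ρ, ∫ y in closedBall x t, tg P f y ∂μ ≤ lam * t ^ m) :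
    (σ ^ m)⁻¹ * ∫ y, f y * bump x σ y ∂μ ≤
      (ρ ^ m)⁻¹ * ∫ y, f y * bump x ρ y ∂μ + lam * (ρ - σ) := by
  obtain ⟨k, rfl⟩ : ∃ k, m = k + 1 := ⟨m - 1, by have := h.mpos; omega⟩
  have hd : ∀ s ∈ Icc σ ρ, ∃ d, 0 ≤ d ∧ HasDerivAt
      (fun s => (s ^ (k + 1))⁻¹ * ∫ y, f y * bump x s y ∂μ + lam * s) d s := by
    intro s hs
    have hs0 : 0 < s := hσ.trans_le hs.1
    have h1 := h.ineq_I hf f0 hs0 ((closedBall_subset_closedBall hs.2).trans hB)
    have h2 := mul_le_mul_of_nonneg_left (hJ s hs) hs0.le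
    refine ⟨_, ?_, (((hasDerivAt_pow (k + 1) s).fun_inv (pow_ne_zero _ hs0.ne')).fun_mul
      (h.der_I hf.continuous x hs0)).fun_add ((hasDerivAt_id' s).const_mul lam)⟩
    set I := ∫ y, f y * bump x s y ∂μ
    set D := ∫ y, f y * (deriv gam (‖y - x‖ ^ 2 / s ^ 2) * (-2 * ‖y - x‖ ^ 2 / s ^ 3)) ∂μ
    have e : -(((k + 1 : ℕ) : ℝ) * s ^ (k + 1 - 1)) / (s ^ (k + 1)) ^ 2 * I +
        (s ^ (k + 1))⁻¹ * D + lam * 1 =
        (s * D - ((k + 1 : ℕ) : ℝ) * I + s * (lam * s ^ (k + 1))) / (s * s ^ (k + 1)) := by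
      rw [Nat.add_sub_cancel]
      field_simp
      ring
    rw [e]
    exact div_nonneg (by linarith) (by positivity)
  have hm := monotoneOn_of_deriv_nonneg (convex_Icc σ ρ)
    (f := fun s => (s ^ (k + 1))⁻¹ * ∫ y, f y * bump x s y ∂μ + lam * s)
    (fun s hs => (hd s hs).choose_spec.2.continuousAt.continuousWithinAt)
    (fun s hs => (hd s (interior_subset hs)).choose_spec.2.differentiableAt.differentiableWithinAt)
    (fun s hs => by
      obtain ⟨d, d0, d1⟩ := hd s (interior_subset hs)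
      rwa [d1.deriv])
  have := hm (left_mem_Icc.2 hσρ) (right_mem_Icc.2 hσρ) hσρ
  simp only at this
  linarith

end Vale.Agent.P214
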