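import Vale.Agent.P214.Kit

/-! P214 Prj (owner helper61). Helper names end with `_Prj`.
Projections and integrability. `⟪v, P v⟫ = ⟪v, P (P v)⟫ = ‖P v‖ ^ 2`, Cauchy-Schwarz.
Integrability: measurable by `AEStronglyMeasurable` of continuous bilinear evaluations
(`ContinuousLinearMap.aestronglyMeasurable_comp₂`, `continuous_eval.comp_aestronglyMeasurable`,
`isBoundedBilinearMap_apply.continuous`, `isBoundedBilinearMap_comp.continuous`), bounded by
the continuous compactly supported `‖D y‖ * ‖w y‖` (`Continuous.integrable_of_hasCompactSupport`, `Integrable.mono'`).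
`int_le`: `setIntegral_eq_integral_of_forall_compl_eq_zero`, `norm_setIntegral_le_of_norm_le_const_ae`.
-/

namespace Vale.Agent.P214

open MeasureTheory Set Filter Topology Metric
open scoped ENNReal RealInnerProductSpace

variable {m N : ℕ} {μ : Measure (Sp N)} {P : Sp N → Sp N →L[ℝ] Sp N} {O : Set (Sp N)} {c : ℝ}

theorem Loc.inner_P (h : Loc m μ P O c) (y v : Sp N) : ⟪v, P y v⟫ = ‖P y v‖ ^ 2 := by
  rw [← real_inner_self_eq_norm_sq, h.sym, h.idem]

theorem Loc.norm_P (h : Loc m μ P O c) (y v : Sp N) : ‖P y v‖ ≤ ‖v‖ := by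
  have h1 := h.inner_P y v
  have h2 := real_inner_le_norm v (P y v)
  rcases (norm_nonneg (P y v)).eq_or_lt with h3 | h3
  · rw [← h3]
    exact norm_nonneg _
  · nlinarith

theorem Loc.tg_le (h : Loc m μ P O c) (f : Sp N → ℝ) (y : Sp N) :
    0 ≤ tg P f y ∧ tg P f y ≤ ‖fderiv ℝ f y‖ ∧ ∀ v, |fderiv ℝ f y (P y v)| ≤ tg P f y * ‖v‖ := by
  refine ⟨norm_nonneg _, ContinuousLinearMap.opNorm_le_bound _ (norm_nonneg _) fun v => ?_,
    fun v => ((fderiv ℝ f y).comp (P y)).le_opNorm v⟩
  exact ((fderiv ℝ f y).le_opNorm _).trans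
    (mul_le_mul_of_nonneg_left (h.norm_P y v) (norm_nonneg _))

theorem ap_Prj {F : Type} [NormedAddCommGroup F] [NormedSpace ℝ F] {D : Sp N → Sp N →L[ℝ] F}
    {w : Sp N → Sp N} (hD : AEStronglyMeasurable D μ) (hw : AEStronglyMeasurable w μ) :
    AEStronglyMeasurable (fun y => D y (w y)) μ :=
  (isBoundedBilinearMap_apply (𝕜 := ℝ) (E := Sp N) (F := F)).continuous.comp_aestronglyMeasurable
    (hD.prodMk hw)

theorem tg_Prj (h : Loc m μ P O c) {f : Sp N → ℝ} (hf : ContDiff ℝ 1 f) :
    AEStronglyMeasurable (tg P f) μ :=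
  ((isBoundedBilinearMap_comp (𝕜 := ℝ) (E := Sp N) (F := Sp N)
    (G := ℝ)).continuous.comp_aestronglyMeasurable
    ((hf.continuous_fderiv one_ne_zero).aestronglyMeasurable.prodMk h.meas)).norm

theorem Loc.int_ap (h : Loc m μ P O c) {D : Sp N → Sp N →L[ℝ] ℝ} {w : Sp N → Sp N}
    (hD : Continuous D) (cs : HasCompactSupport D) (hw : Continuous w) :
    Integrable (fun y => D y (P y (w y))) μ := by
  have := h.fin
  have h1 : Integrable (fun y => ‖D y‖ * ‖w y‖) μ :=
    (hD.norm.mul hw.norm).integrable_of_hasCompactSupport cs.norm.mul_right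
  refine h1.mono' (ap_Prj hD.aestronglyMeasurable (ap_Prj h.meas hw.aestronglyMeasurable))
    (Eventually.of_forall fun y => ?_)
  exact ((D y).le_opNorm _).trans (mul_le_mul_of_nonneg_left (h.norm_P y _) (norm_nonneg _))

theorem Loc.int_tg (h : Loc m μ P O c) {f a : Sp N → ℝ} (hf : ContDiff ℝ 1 f) (ha : Continuous a)
    (cs : HasCompactSupport a) : Integrable (fun y => a y * tg P f y) μ := by
  have := h.fin
  have h1 : Integrable (fun y => ‖a y‖ * ‖fderiv ℝ f y‖) μ :=
    (ha.norm.mul (hf.continuous_fderiv one_ne_zero).norm).integrable_of_hasCompactSupport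
      cs.norm.mul_right
  refine h1.mono' (ha.aestronglyMeasurable.mul (tg_Prj h hf)) (Eventually.of_forall fun y => ?_)
  rw [norm_mul, Real.norm_of_nonneg (h.tg_le f y).1]
  exact mul_le_mul_of_nonneg_left (h.tg_le f y).2.1 (norm_nonneg _)

theorem Loc.intOn_tg (h : Loc m μ P O c) {f : Sp N → ℝ} (hf : ContDiff ℝ 1 f) {K : Set (Sp N)}
    (hK : IsCompact K) : IntegrableOn (tg P f) K μ := by
  have := h.fin
  have h1 : IntegrableOn (fun y => ‖fderiv ℝ f y‖) K μ :=
    (hf.continuous_fderiv one_ne_zero).norm.continuousOn.integrableOn_compact hK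
  refine Integrable.mono' h1 (tg_Prj h hf).restrict (Eventually.of_forall fun y => ?_)
  rw [Real.norm_of_nonneg (h.tg_le f y).1]
  exact (h.tg_le f y).2.1

theorem Loc.int_nP (h : Loc m μ P O c) {a : Sp N → ℝ} (ha : Continuous a)
    (cs : HasCompactSupport a) (v : Sp N) (k : ℕ) :
    Integrable (fun y => a y * ‖P y v‖ ^ k) μ := by
  have := h.fin
  have h1 : Integrable (fun y => ‖a y‖ * ‖v‖ ^ k) μ :=
    (ha.norm.mul continuous_const).integrable_of_hasCompactSupport cs.norm.mul_right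
  refine h1.mono' (ha.aestronglyMeasurable.mul
    ((ap_Prj h.meas aestronglyMeasurable_const).norm.pow k)) (Eventually.of_forall fun y => ?_)
  rw [norm_mul, norm_pow, norm_norm]
  exact mul_le_mul_of_nonneg_left (pow_le_pow_left₀ (norm_nonneg _) (h.norm_P y v) k)
    (norm_nonneg _)

theorem Loc.null_bad (h : Loc m μ P O c) (v : Sp N) : NullMeasurableSet {y | P y v = 0} μ := by
  exact (ap_Prj h.meas aestronglyMeasurable_const).aemeasurable.nullMeasurable
    (measurableSet_singleton (0 : Sp N))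

theorem int_le [IsFiniteMeasure μ] {f : Sp N → ℝ} {S : Set (Sp N)} {L : ℝ}
    (h0 : ∀ y ∉ S, f y = 0) (h1 : ∀ y, |f y| ≤ L) : |∫ y, f y ∂μ| ≤ L * μ.real S := by
  rw [← setIntegral_eq_integral_of_forall_compl_eq_zero h0]
  exact norm_setIntegral_le_of_norm_le_const_ae (f := f) (measure_lt_top μ S)
    (Eventually.of_forall h1)

end Vale.Agent.P214
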