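import Mathlib

/-! P214 Stmt: integral varifolds, stationarity, flat regular points. -/

namespace Vale.Agent.P214

open MeasureTheory Set Filter Topology Module
open scoped ENNReal

noncomputable section

/-- Euclidean space of dimension `N`. -/
abbrev Sp (N : ℕ) : Type := EuclideanSpace ℝ (Fin N)

/-- Countably `m`-rectifiable sets. -/
def Rectifiable (m : ℕ) {N : ℕ} (E : Set (Sp N)) : Prop :=
  NullMeasurableSet E μHE[m] ∧ ∃ f : ℕ → Sp m → Sp N, (∀ i, ∃ C, LipschitzWith C (f i)) ∧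
    μHE[m] (E \ ⋃ i, range (f i)) = 0

/-- The weight measure `θ H^m ⌞ E`. -/
def weight (m : ℕ) {N : ℕ} (E : Set (Sp N)) (θ : Sp N → ℕ) : Measure (Sp N) :=
  (μHE[m].restrict E).withDensity fun x => (θ x : ℝ≥0∞)

/-- `T` is the approximate tangent plane of `μ` at `x`, with multiplicity `q`. -/
def ApproxTangent (m : ℕ) {N : ℕ} (μ : Measure (Sp N)) (x : Sp N) (T : Submodule ℝ (Sp N))
    (q : ℝ) : Prop :=
  ∀ φ : Sp N → ℝ, Continuous φ → HasCompactSupport φ →
    Tendsto (fun r : ℝ => (r ^ m)⁻¹ * ∫ y, φ (r⁻¹ • (y - x)) ∂μ) (𝓝[>] 0)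
      (𝓝 (q * ∫ y in (T : Set (Sp N)), φ y ∂μHE[m]))

/-- An integral `m`-varifold in `U`, with its field of approximate tangent planes. -/
structure IntVarifold (m N : ℕ) (U : Set (Sp N)) where
  E : Set (Sp N)
  θ : Sp N → ℕ
  T : Sp N → Submodule ℝ (Sp N)
  sub : E ⊆ U
  rect : Rectifiable m E
  pos : ∀ x ∈ E, 1 ≤ θ x
  meas : AEMeasurable θ (μHE[m].restrict E)
  locFin : ∀ K ⊆ U, IsCompact K → weight m E θ K < ∞
  dim : ∀ x, finrank ℝ (T x) = m
  tangent : ∀ᵐ x ∂weight m E θ, ApproxTangent m (weight m E θ) x (T x) (θ x)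
  measT : AEStronglyMeasurable (fun x => (T x).starProjection) (weight m E θ)

variable {m N : ℕ} {U : Set (Sp N)}

/-- The weight of `V`. -/
def IntVarifold.μ (V : IntVarifold m N U) : Measure (Sp N) := weight m V.E V.θ

/-- The first variation vanishes. -/
def IntVarifold.Stationary (V : IntVarifold m N U) : Prop :=
  ∀ X : Sp N → Sp N, ContDiff ℝ 1 X → HasCompactSupport X → tsupport X ⊆ U →
    ∫ x, LinearMap.trace ℝ (Sp N)
      ((V.T x).starProjection.comp (fderiv ℝ X x)).toLinearMap ∂V.μ = 0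

/-- Near `p` the varifold is an integer multiple of an affine `m`-plane. -/
def IntVarifold.FlatRegular (V : IntVarifold m N U) (p : Sp N) : Prop :=
  ∃ W : Set (Sp N), IsOpen W ∧ p ∈ W ∧ W ⊆ U ∧ ∃ A : AffineSubspace ℝ (Sp N), p ∈ A ∧
    finrank ℝ A.direction = m ∧ V.μ.support ∩ W = (A : Set (Sp N)) ∩ W ∧
    ∃ q : ℕ, 1 ≤ q ∧ V.μ.restrict W = (q : ℝ≥0∞) • μHE[m].restrict ((A : Set (Sp N)) ∩ W)

/-- For each normal vector `ν` of a plane of `F`, the projections of `ν` to the planes of `F`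
are zero or bounded away from zero. -/
def Gap (F : Set (Submodule ℝ (Sp N))) : Prop :=
  ∀ S ∈ F, ∀ ν ∈ Sᗮ, ∃ δ : ℝ, 0 < δ ∧ ∀ T ∈ F, T.starProjection ν = 0 ∨ δ ≤ ‖T.starProjection ν‖

end

end Vale.Agent.P214
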