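import Vale.Agent.P214.Prj

/-! P214 Trans (owner helper61). Helper names end with `_Trans`.
Translation invariance. `der_T`: `hasDerivAt_integral_of_dominated_loc_of_deriv_le` with a constant bound
(`fderiv ℝ g` is continuous with compact support, `μ` is finite).
`trans`: `g = bump x t`, `bump (x + s • v) t y = g (y - s • v)`; for `s ∈ [0, 1]` the derivative is
`-∫ fderiv (bump (x + s • v) t) y v = -∫ fderiv (bump (x + s • v) t) y (P y v) = 0` (`h.s1`, the integrand vanishes off
`closedBall (x + s • v) t ⊆ ball x R`); `constant_of_has_deriv_right_zero`.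
-/

namespace Vale.Agent.P214

open MeasureTheory Set Filter Topology Metric
open scoped ENNReal RealInnerProductSpace

variable {m N : ℕ} {μ : Measure (Sp N)} {P : Sp N → Sp N →L[ℝ] Sp N} {O : Set (Sp N)} {c : ℝ}

theorem der_T [IsFiniteMeasure μ] {g : Sp N → ℝ} (hg : ContDiff ℝ 1 g) (cs : HasCompactSupport g)
    (v : Sp N) (s : ℝ) : HasDerivAt (fun s : ℝ => ∫ y, g (y - s • v) ∂μ)
      (-∫ y, fderiv ℝ g (y - s • v) v ∂μ) s := by
  have hc : Continuous (fderiv ℝ g) := hg.continuous_fderiv one_ne_zero
  obtain ⟨C, hC⟩ := (cs.fderiv ℝ).exists_bound_of_continuous hc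
  obtain ⟨C', hC'⟩ := cs.exists_bound_of_continuous hg.continuous
  have hm : ∀ s : ℝ, AEStronglyMeasurable (fun y => g (y - s • v)) μ := fun s =>
    (hg.continuous.comp (continuous_id.sub continuous_const)).aestronglyMeasurable
  rw [← integral_neg]
  refine (hasDerivAt_integral_of_dominated_loc_of_deriv_le (s := univ)
    (F := fun s y => g (y - s • v)) (F' := fun s y => -fderiv ℝ g (y - s • v) v)
    (bound := fun _ => C * ‖v‖) univ_mem (Eventually.of_forall hm)
    (Integrable.of_bound (hm s) C' (ae_of_all _ fun y => hC' _)) ?_ (ae_of_all _ fun y r _ => ?_)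
    (integrable_const _) (ae_of_all _ fun y r _ => ?_)).2
  · exact ((hc.comp (continuous_id.sub continuous_const)).clm_apply
      continuous_const).neg.aestronglyMeasurable
  · rw [norm_neg]
    exact (ContinuousLinearMap.le_opNorm _ _).trans
      (mul_le_mul_of_nonneg_right (hC _) (norm_nonneg _))
  · have h1 : HasDerivAt (fun s : ℝ => y - s • v) (-v) r := by
      simpa using ((hasDerivAt_id r).smul_const v).const_sub y
    have h2 := ((hg.differentiable one_ne_zero) (y - r • v)).hasFDerivAt.comp_hasDerivAt r h1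
    rw [map_neg] at h2
    exact h2

theorem Loc.trans (h : Loc m μ P O c) {x v : Sp N} {R t : ℝ} (hO : ball x R ⊆ O) (ht : 0 < t)
    (hv : ‖v‖ + t < R) (hP : ∀ᵐ y ∂μ, y ∈ ball x R → P y v = v) :
    ∫ y, bump (x + v) t y ∂μ = ∫ y, bump x t y ∂μ := by
  have := h.fin
  have hd := der_T (μ := μ) (bump_contDiff x t) (bump_supp x ht).1 v
  have e : ∀ (s : ℝ) (y : Sp N), y - s • v - x = y - (x + s • v) := fun s y => by abel
  have h0 : ∀ s ∈ Ico (0 : ℝ) 1, ∫ y, fderiv ℝ (bump x t) (y - s • v) v ∂μ = 0 := fun s hs => by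
    have hs' : tsupport (bump (x + s • v) t) ⊆ ball x R := by
      refine (bump_supp _ ht).2.trans (closedBall_subset_ball' ?_)
      rw [dist_eq_norm, add_sub_cancel_left, norm_smul, Real.norm_of_nonneg hs.1]
      have := mul_le_of_le_one_left (norm_nonneg v) hs.2.le
      linarith
    rw [← h.s1 _ (bump_contDiff (x + s • v) t) (bump_supp _ ht).1 (hs'.trans hO) v]
    refine integral_congr_ae ?_
    filter_upwards [hP] with y hy
    have e1 : fderiv ℝ (bump x t) (y - s • v) v = fderiv ℝ (bump (x + s • v) t) y v := by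
      rw [bump_fderiv, bump_fderiv, e]
    rw [e1]
    by_cases hb : y ∈ ball x R
    · rw [hy hb]
    · have : fderiv ℝ (bump (x + s • v) t) y = 0 := by
        by_contra hn
        exact hb (hs' (support_fderiv_subset ℝ hn))
      rw [this]
      rfl
  have := constant_of_has_deriv_right_zero (f := fun s : ℝ => ∫ y, bump x t (y - s • v) ∂μ)
    (a := 0) (b := 1) (fun s _ => (hd s).continuousAt.continuousWithinAt)
    (fun s hs => by simpa only [h0 s hs, neg_zero] using (hd s).hasDerivWithinAt) 1
    (right_mem_Icc.2 zero_le_one)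
  simp only [zero_smul, sub_zero] at this
  rw [← this]
  refine integral_congr_ae (ae_of_all _ fun y => ?_)
  simp only [bump]
  rw [e, one_smul]

end Vale.Agent.P214
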